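import Vale.Agent.P097.H402.Alg.Final
import Vale.Agent.P097.H456.Fct.Defs

/-! # P097 / ALG: the algebraic case of the full proof (`HAlg` of `H456.Fct`) -/

set_option linter.all false

open Complex Polynomial Set

namespace Vale.Agent.P097.Alg

open Vale.Agent.P097 Vale.Agent.P097.H402 Vale.Agent.P097.H402.Rat Vale.Agent.P097.TA
open Vale.Agent.P097.H456.Fct Vale.Agent.P097.H202

/-- polynomials in two variables -/
noncomputable def toBiv : MvPolynomial (Fin 2) ℂ →ₐ[ℂ] ℂ[X][X] :=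
  MvPolynomial.aeval ![C X, X]

theorem toBiv_eval (P : MvPolynomial (Fin 2) ℂ) (v : Fin 2 → ℂ) :
    (toBiv P).evalEval (v 0) (v 1) = MvPolynomial.eval v P := by
  induction P using MvPolynomial.induction_on with
  | C a =>
    have h : toBiv (MvPolynomial.C a) = C (C a) := MvPolynomial.aeval_C _ a
    rw [h, MvPolynomial.eval_C, evalEval_C, eval_C]
  | add p q hp hq => rw [map_add, map_add, evalEval_add, hp, hq]
  | mul_X p i hp =>
    rw [map_mul, map_mul, evalEval_mul, hp, MvPolynomial.eval_X]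
    congr 1
    unfold toBiv
    rw [MvPolynomial.aeval_X]
    fin_cases i
    · simp [evalEval_C]
    · simp

theorem toBiv_ne {P : MvPolynomial (Fin 2) ℂ} (hP : P ≠ 0) : toBiv P ≠ 0 := by
  intro h
  apply hP
  apply MvPolynomial.funext
  intro v
  rw [← toBiv_eval, h, evalEval_zero, map_zero]

theorem algCl_of_hAlg {κ : ℝ} {H : ℂ → ℂ} {h : ℝ → ℝ} (hκ : 0 < κ) (hH : ∀ x : ℝ, H x = (h x : ℂ))
    (A : HAlg κ H) : AlgCl h := by
  obtain ⟨P, hP, hP0⟩ := A
  refine ⟨toBiv P, toBiv_ne hP, fun x => ?_⟩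
  have h1 : (x : ℂ) ∈ Str κ := by
    show |(x : ℂ).im| < κ
    rw [Complex.ofReal_im, abs_zero]
    exact hκ
  have h2 := hP0 x h1
  have h3 := toBiv_eval P (Fin.cons (Complex.exp (I * x)) fun i : Fin 1 => iteratedDeriv i H x)
  rw [show MvPolynomial.eval (Fin.cons (Complex.exp (I * x)) fun i : Fin 1 =>
    iteratedDeriv i H (x : ℂ)) P = 0 from h2] at h3
  have h4 : iteratedDeriv (((0 : Fin 1) : ℕ)) H (x : ℂ) = (h x : ℂ) := by
    rw [← hH x]
    simp
  rw [← h4]
  exact h3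

/-- the algebraic case of the full proof -/
theorem ellipse_of_hAlg (Z : PALG) {h : ℝ → ℝ} {η κ : ℝ} {H : ℂ → ℂ} (h0 : 0 < η)
    (Hs : SmoothTable h) (hL : Collar h η ∨ H407.Leaves h η) (hκ : 0 < κ)
    (hH : ∀ x : ℝ, H x = (h x : ℂ)) (A : HAlg κ H) : H407.IsEllipse h :=
  ellipse_of_supp Z h0 Hs hL (algCl_of_hAlg hκ hH A)

end Vale.Agent.P097.Alg
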