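import Vale.Agent.P097.H128.NZ.End3
import Vale.Agent.P097.H128.NZ.Defs3

/-! # P097 / ALG: all algebraic tables.  Definitions and interfaces.

Owner: helper402.  A table which is integrable near the boundary and whose radius of curvature
`ρ = h + h''` is an algebraic function of `exp (i ψ)` is an ellipse.

Proof: the conic invariant `kap ρ` (constant iff the table is an ellipse) is bounded at every end of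
the Riemann surface of `ρ`, so it is constant. -/

set_option linter.all false

open Complex Metric Filter Topology Set Polynomial
open scoped ComplexConjugate

namespace Vale.Agent.P097.Alg

open Vale.Agent.P097.TA Vale.Agent.P097.H202 Vale.Agent.P097.H402.Rat Vale.Agent.P097.NZ

/-! ## 1. The conic invariant -/

/-- `q ^ 3`, where `2 q = v'' + 4 v`, `v = ρ ^ (-2/3)` -/
noncomputable def kap (ρ : ℂ → ℂ) (ψ : ℂ) : ℂ :=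
  (2 * ρ ψ ^ 2 + 5 / 9 * deriv ρ ψ ^ 2 - 1 / 3 * (ρ ψ * deriv (deriv ρ) ψ)) ^ 3 / ρ ψ ^ 8

/-! ## 2. Ends at finite angles: `ψ = ψ₀ + ξ ^ N`, `ρ = ξ ^ k R(ξ)`.
`NZ.EndH N k R ψ₀ ε` (helper128, H128/NZ/End2.lean) says that all the points `ξ ≠ 0` are good. -/

/-- the conic invariant is bounded at the finitely branched ends at finite angles -/
def EndBd : Prop := ∀ (N : ℕ) (k : ℤ) (R : ℂ → ℂ) (ψ₀ : ℂ) (ε : ℝ), EndH N k R ψ₀ ε →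
  ∃ r > 0, r ≤ ε ∧ ∃ M : ℝ, ∀ ξ ∈ ball (0 : ℂ) r, ξ ≠ 0 → ∀ ρ : ℂ → ℂ,
    (∀ᶠ ξ' in 𝓝 ξ, ρ (ψ₀ + ξ' ^ N) = ξ' ^ k * R ξ') → ‖kap ρ (ψ₀ + ξ ^ N)‖ ≤ M

/-- all the kills of the law at a simple pole (real exponents) -/
def KB : Prop := ∀ (σ : ℝ) (f : ℂ → ℂ), LawB σ f → σ = 0 ∨ σ = -3 / 2 ∨ σ ≤ -3

/-- ALG-K2: the law at `-3 < σ < -2` (HR, Galilean, `a > 3`) -/
def KB3 : Prop := ∀ (σ : ℝ) (f : ℂ → ℂ), -3 < σ → σ < -2 → ¬ LawB σ f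

/-- ALG-K1: the law at `σ = -2` (dual to `LawE`) -/
def KB2 : Prop := ∀ f : ℂ → ℂ, ¬ LawB (-2) f

/-- ALG-K3: the isotropic law for `m ≥ 3` -/
def KI3 : Prop := ∀ (m : ℝ) (f : ℂ → ℂ), 3 ≤ m → ¬ LawI m f

/-- ALG-L0: at a branched end of exponent `0` there is no term `(ψ - ψ₀) ^ β`, `0 < β < 2`,
`β ≠ 1` (linearised law) -/
def PL0 : Prop := ∀ (N : ℕ) (R : ℂ → ℂ) (ψ₀ : ℂ) (ε : ℝ), EndH N 0 R ψ₀ ε →
  ∀ j : ℕ, 0 < j → j < 2 * N → j ≠ N → iteratedDeriv j R 0 = 0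

/-- ALG-L1: at an end of exponent `-3/2` there is no term `(ψ - ψ₀) ^ β`, `0 < β < 1`
(linearised law) -/
def PL1 : Prop := ∀ (N : ℕ) (k : ℤ) (R : ℂ → ℂ) (ψ₀ : ℂ) (ε : ℝ), EndH N k R ψ₀ ε →
  2 * k = -3 * N → ∀ j : ℕ, 0 < j → j < N → iteratedDeriv j R 0 = 0

/-! ## 3. Isotropic ends: `exp (s i ψ) = ξ ^ N → 0`, `s = ± 1`, `ρ = ξ ^ k R(ξ)` -/

/-- the coordinate `ξ` along the angle, starting from `ξ₁` at `ψ₁` -/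
noncomputable def xiI (s : ℂ) (N : ℕ) (ψ₁ ξ₁ ψ : ℂ) : ℂ := ξ₁ * Complex.exp (s * I * (ψ - ψ₁) / N)

/-- an isotropic end with `exp (s i ψ) = ξ ^ N`, `ρ = ξ ^ k R(ξ)`, all of whose points `ξ ≠ 0` are
good -/
structure EndI (s : ℂ) (N : ℕ) (k : ℤ) (R : ℂ → ℂ) (ε : ℝ) : Prop where
  hs : s = 1 ∨ s = -1
  hε : 0 < ε
  hN : 1 ≤ N
  dR : DifferentiableOn ℂ R (ball 0 ε)
  R0 : ∀ ξ ∈ ball (0 : ℂ) ε, R ξ ≠ 0
  good : ∀ ξ₁ ∈ ball (0 : ℂ) ε, ξ₁ ≠ 0 → ∀ ψ₁ : ℂ, Complex.exp (s * I * ψ₁) = ξ₁ ^ N →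
    ∀ ρ : ℂ → ℂ, (∀ᶠ ψ in 𝓝 ψ₁, ρ ψ = xiI s N ψ₁ ξ₁ ψ ^ k * R (xiI s N ψ₁ ξ₁ ψ)) →
    Good (Ik ρ) (TT ρ) ψ₁

/-- the conic invariant is bounded at the isotropic ends -/
def EndBdI : Prop := ∀ (s : ℂ) (N : ℕ) (k : ℤ) (R : ℂ → ℂ) (ε : ℝ), EndI s N k R ε →
  ∃ r > 0, r ≤ ε ∧ ∃ M : ℝ, ∀ ξ₁ ∈ ball (0 : ℂ) r, ξ₁ ≠ 0 → ∀ ψ₁ : ℂ,
    Complex.exp (s * I * ψ₁) = ξ₁ ^ N → ∀ ρ : ℂ → ℂ,
    (∀ᶠ ψ in 𝓝 ψ₁, ρ ψ = xiI s N ψ₁ ξ₁ ψ ^ k * R (xiI s N ψ₁ ξ₁ ψ)) → ‖kap ρ ψ₁‖ ≤ M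

/-- kernel of the chord equation at an isotropic end, in the coordinates `ξ`, `δ` -/
noncomputable def ki (s : ℂ) (N : ℕ) (k : ℤ) (R : ℂ → ℂ) (p : ℂ × ℂ) (v : ℂ) : ℂ :=
  Complex.exp (s * I * (k / N) * (p.2 * v)) * R (p.1 * Complex.exp (s * I * (p.2 * v) / N)) *
    snc (p.2 * (v - 1))

/-- root of the chord equation at an isotropic end -/
noncomputable def ri (s : ℂ) (N : ℕ) (k : ℤ) (R : ℂ → ℂ) (p : ℂ × ℂ) : ℂ := root (ki s N k R p)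

/-- the chord map at an isotropic end -/
noncomputable def Ti (s : ℂ) (N : ℕ) (k : ℤ) (R : ℂ → ℂ) (p : ℂ × ℂ) : ℂ × ℂ :=
  (p.1 * Complex.exp (s * I * (p.2 * ri s N k R p) / N), p.2 * (ri s N k R p - 1))

/-- ALG-EI: the law near an isotropic end (the analogue of `EndH.law0`): `ρ H` is invariant under the
chord map, `H(ξ, δ) = (2/3) δ³ + O(δ⁵)` odd in `δ` and analytic near `(0, 0)` -/
def LawI0 : Prop := ∀ (s : ℂ) (N : ℕ) (k : ℤ) (R : ℂ → ℂ) (ε : ℝ), EndI s N k R ε →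
  ∃ H : ℂ × ℂ → ℂ, AnalyticAt ℂ H (0, 0) ∧ (∀ᶠ p in 𝓝 ((0, 0) : ℂ × ℂ), H (p.1, -p.2) = -H p) ∧
    (∀ᶠ ξ in 𝓝 (0 : ℂ), iteratedDeriv 1 (fun δ => H (ξ, δ)) 0 = 0 ∧
      iteratedDeriv 3 (fun δ => H (ξ, δ)) 0 = 4) ∧
    ∀ᶠ p in 𝓝 ((0, 0) : ℂ × ℂ),
      Complex.exp (s * I * (k / N) * (p.2 * ri s N k R p)) * R (Ti s N k R p).1 *
        H (Ti s N k R p) = R p.1 * H p

/-- the same for the finite ends, from `NZ.EndH.law0` (helper128) -/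
def LawH0 : Prop := ∀ (N : ℕ) (k : ℤ) (R : ℂ → ℂ) (ψ₀ : ℂ) (ε : ℝ), EndH N k R ψ₀ ε →
  ∃ H : ℂ × ℂ → ℂ, AnalyticAt ℂ H (0, 0) ∧ (∀ᶠ p in 𝓝 ((0, 0) : ℂ × ℂ), H (p.1, -p.2) = -H p) ∧
    (∀ᶠ ξ in 𝓝 (0 : ℂ), iteratedDeriv 1 (fun η => H (ξ, η)) 0 = 0 ∧
      iteratedDeriv 3 (fun η => H (ξ, η)) 0 = 4) ∧
    ∀ᶠ p in 𝓝 ((0, 0) : ℂ × ℂ),
      rr N (k / N) R p ^ ((k : ℂ) / N + 3) * R (Te N (k / N) R p).1 * H (Te N (k / N) R p) =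
        R p.1 * H p

/-- ALG-LI: at an isotropic end of exponent `3` there is no term `z ^ β`, `0 < β < 2`
(linearised law) -/
def PLI : Prop := ∀ (s : ℂ) (N : ℕ) (R : ℂ → ℂ) (ε : ℝ), EndI s N (3 * N) R ε →
  ∀ j : ℕ, 0 < j → j < 2 * N → iteratedDeriv j R 0 = 0

/-- ALG-EL: the law at `ξ = 0` of an isotropic end with `k > 0` -/
def EndLI : Prop := ∀ (s : ℂ) (N : ℕ) (k : ℤ) (R : ℂ → ℂ) (ε : ℝ), EndI s N k R ε → 0 < k →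
  ∃ f : ℂ → ℂ, LawI (3 * N / k) f

/-! ## 4. Algebraic functions -/

/-- value of the polynomial with coefficients `a i` -/
noncomputable def pv (d : ℕ) (a : ℕ → ℂ → ℂ) (x Y : ℂ) : ℂ :=
  ∑ i ∈ Finset.range (d + 1), a i x * Y ^ i

/-- derivative of the polynomial with coefficients `a i` -/
noncomputable def pv' (d : ℕ) (a : ℕ → ℂ → ℂ) (x Y : ℂ) : ℂ :=
  ∑ i ∈ Finset.range (d + 1), i * a i x * Y ^ (i - 1)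

/-- a polynomial of degree `d` with analytic coefficients, without zero and multiple roots over the
punctured disc -/
structure AlgF (d : ℕ) (a : ℕ → ℂ → ℂ) (r : ℝ) : Prop where
  hr : 0 < r
  an : ∀ i, DifferentiableOn ℂ (a i) (ball 0 r)
  lead : ∀ x ∈ ball (0 : ℂ) r, x ≠ 0 → a d x ≠ 0
  low : ∀ x ∈ ball (0 : ℂ) r, x ≠ 0 → a 0 x ≠ 0
  sep : ∀ x ∈ ball (0 : ℂ) r, x ≠ 0 → ∀ Y, pv d a x Y = 0 → pv' d a x Y ≠ 0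

/-- ALG-PU: Puiseux -/
def PPU : Prop := ∀ (d : ℕ) (a : ℕ → ℂ → ℂ) (r : ℝ), 1 ≤ d → AlgF d a r →
  ∃ (N : ℕ) (ε : ℝ) (k : Fin d → ℤ) (R : Fin d → ℂ → ℂ), 1 ≤ N ∧ 0 < ε ∧ ε ^ N ≤ r ∧
    (∀ j, DifferentiableOn ℂ (R j) (ball 0 ε)) ∧ (∀ j, ∀ ξ ∈ ball (0 : ℂ) ε, R j ξ ≠ 0) ∧
    ∀ ξ ∈ ball (0 : ℂ) ε, ξ ≠ 0 → ∀ Y,
      (pv d a (ξ ^ N) Y = 0 ↔ ∃ j, Y = ξ ^ (k j) * R j ξ)

/-- `g` is an algebraic function of `exp (i ψ)` -/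
def AlgCl (g : ℝ → ℝ) : Prop :=
  ∃ P : ℂ[X][X], P ≠ 0 ∧ ∀ x : ℝ, P.evalEval (ez x) (g x : ℂ) = 0

/-- ALG-NA: the norm argument.  `R` algebraic over `ℂ(exp (i ψ))` near the real axis, good at the
real points, and the conic invariant bounded at all the ends: then it is constant -/
def PNA : Prop := ∀ (R : ℂ → ℂ) (δ : ℝ), 0 < δ → DifferentiableOn ℂ R (Str δ) →
  (∀ z ∈ Str δ, R z ≠ 0) → (∀ z ∈ Str δ, R (z + 2 * Real.pi) = R z) →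
  (∀ x : ℝ, Good (Ik R) (TT R) x) →
  (∃ P : ℂ[X][X], P ≠ 0 ∧ ∀ x : ℝ, P.evalEval (ez x) (R x) = 0) →
  ∃ c : ℂ, ∀ x : ℝ, kap R x = c

/-! ## 5. Conclusion -/

/-- ALG-KC: the conic invariant is constant: ellipse -/
def PKC : Prop := ∀ (h : ℝ → ℝ) (R : ℂ → ℂ) (δ : ℝ) (c : ℂ), SmoothTable h → 0 < δ →
  DifferentiableOn ℂ R (Str δ) → (∀ x : ℝ, R x = ((h x + deriv (deriv h) x : ℝ) : ℂ)) →
  (∀ x : ℝ, kap R x = c) →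
  ∃ a b φ p q : ℝ, 0 < a ∧ 0 < b ∧ h = fun ψ => p * Real.cos ψ + q * Real.sin ψ +
    √(a ^ 2 * Real.cos (ψ - φ) ^ 2 + b ^ 2 * Real.sin (ψ - φ) ^ 2)

/-- ALG-GEO: a table bounded by an algebraic curve has an algebraic radius of curvature -/
def PGEO : Prop := ∀ h : ℝ → ℝ, SmoothTable h → AnalyticOnNhd ℝ h univ →
  (∃ F : ℝ[X][X], F ≠ 0 ∧ ∀ ψ : ℝ,
    F.evalEval (h ψ * Real.cos ψ - deriv h ψ * Real.sin ψ)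
      (h ψ * Real.sin ψ + deriv h ψ * Real.cos ψ) = 0) →
  AlgCl (fun x => h x + deriv (deriv h) x)

/-- ALG-Z: all algebraic tables -/
def PALG : Prop := ∀ (h : ℝ → ℝ) (η : ℝ), 0 < η → SmoothTable h → Collar h η →
  AlgCl (fun x => h x + deriv (deriv h) x) →
  ∃ a b φ p q : ℝ, 0 < a ∧ 0 < b ∧ h = fun ψ => p * Real.cos ψ + q * Real.sin ψ +
    √(a ^ 2 * Real.cos (ψ - φ) ^ 2 + b ^ 2 * Real.sin (ψ - φ) ^ 2)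

/-- assembly of the kills -/
theorem kb (k1 : ∀ (σ : ℝ) (f : ℂ → ℂ), -1 ≤ σ → σ ≠ 0 → ¬ LawB σ f) (k2 : PK2) (k3 : PK3)
    (k4 : KB2) (k5 : KB3) : KB := by
  intro σ f hf
  by_contra hcon
  push Not at hcon
  obtain ⟨c1, c2, c3⟩ := hcon
  rcases le_or_gt (-1) σ with h1 | h1
  · exact k1 σ f h1 c1 hf
  rcases lt_or_ge (-3 / 2) σ with h2 | h2
  · exact k2 σ f h2 h1.le hf
  rcases lt_or_ge (-2) σ with h3 | h3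
  · exact k3 σ f h3 (lt_of_le_of_ne h2 c2) hf
  rcases eq_or_lt_of_le h3 with h4 | h4
  · rw [h4] at hf
    exact k4 f hf
  · exact k5 σ f c3 h4 hf

/-- assembly of the theorem -/
theorem palg (pA : PA) (rs : RealStart) (pN : PNA) (pK : PKC) : PALG := by
  intro h η hη hs hc hr
  obtain ⟨R, δ, E, ξ, X, hR, P⟩ := pA h η hη hs hc
  obtain ⟨Q, hQ, hQ0⟩ := hr
  obtain ⟨c, hc⟩ := pN R δ P.hδ P.dR P.R0 P.Rp (fun x => rs R δ E ξ X P x)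
    ⟨Q, hQ, fun x => by rw [hR x]; exact hQ0 x⟩
  exact pK h R δ c hs P.hδ P.dR hR hc

end Vale.Agent.P097.Alg
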