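import Vale.Agent.P097.H402.Alg.Defs
import Vale.Agent.P097.H402.Equiv
import Vale.Agent.P097.H407.Final
import Vale.Agent.P097.H438.Final
import Vale.Agent.P097.H536.T9
import Vale.Agent.P097.H937.GeoMain

/-! # P097 / ALG: final statements, from `PALG` -/

set_option linter.all false

open Polynomial Set

namespace Vale.Agent.P097.Alg

open Vale.Agent.P097 Vale.Agent.P097.H402

theorem collar_of {h : ℝ → ℝ} {η : ℝ} (h0 : 0 < η) (Hs : SmoothTable h)
    (hL : Collar h η ∨ H407.Leaves h η) : ∃ η : ℝ, 0 < η ∧ Collar h η := by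
  rcases hL with hL | hL
  · exact ⟨η, h0, hL⟩
  · exact (equivalence Hs).1.2 ⟨η, h0, hL⟩

/-- **Theorem ALG**, with a collar or with the rational curves of small rotation number -/
theorem ellipse_of_alg (Z : PALG) {h : ℝ → ℝ} {η : ℝ} (h0 : 0 < η) (Hs : SmoothTable h)
    (hL : Collar h η ∨ H407.Leaves h η) (hr : AlgCl (fun x => h x + deriv (deriv h) x)) :
    H407.IsEllipse h := by
  obtain ⟨η', hη', hc⟩ := collar_of h0 Hs hL
  exact Z h η' hη' Hs hc hr

theorem bdry_re (h : ℝ → ℝ) (ψ : ℝ) :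
    (bdry h ψ).re = h ψ * Real.cos ψ - deriv h ψ * Real.sin ψ := by
  rw [bdry, Complex.exp_mul_I]
  simp [Complex.cos_ofReal_re, Complex.sin_ofReal_re, Complex.cos_ofReal_im, Complex.sin_ofReal_im]

theorem bdry_im (h : ℝ → ℝ) (ψ : ℝ) :
    (bdry h ψ).im = h ψ * Real.sin ψ + deriv h ψ * Real.cos ψ := by
  rw [bdry, Complex.exp_mul_I]
  simp [Complex.cos_ofReal_re, Complex.sin_ofReal_re, Complex.cos_ofReal_im, Complex.sin_ofReal_im]

/-- a table integrable near the boundary which is bounded by an algebraic curve is an ellipse -/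
theorem ellipse_of_curve (Z : PALG) {h : ℝ → ℝ} {η : ℝ} (h0 : 0 < η) (Hs : SmoothTable h)
    (hL : Collar h η ∨ H407.Leaves h η)
    (hF : ∃ F : ℝ[X][X], F ≠ 0 ∧ ∀ ψ : ℝ, F.evalEval (bdry h ψ).re (bdry h ψ).im = 0) :
    H407.IsEllipse h := by
  have hc := collar_of h0 Hs hL
  obtain ⟨η', hη', hc'⟩ := hc
  have hT : IsTable h := ((equivalence Hs).2.1 ⟨η', hη', hc'⟩).1
  refine Z h η' hη' Hs hc' (H937.pgeo h Hs (fun x _ => hT.1 x) ?_)
  obtain ⟨F, hF, hF0⟩ := hF
  refine ⟨F, hF, fun ψ => ?_⟩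
  rw [← bdry_re, ← bdry_im]
  exact hF0 ψ

/-- derivatives of algebraic functions of `exp (i x)` are algebraic -/
theorem dep_der {a a' : H937.An} (ha : ∀ x, HasDerivAt a.1 (a'.1 x) x)
    (h : H937.Dep H937.zA.1 a.1) : H937.Dep H937.zA.1 a'.1 := by
  have h0 : (algebraMap ℂ H937.An Complex.I * H937.zA) ≠ 0 := by
    refine H937.An.ne_zero (x := 0) ?_
    exact mul_ne_zero Complex.I_ne_zero (H937.zA_ne 0)
  obtain ⟨u, v, hu, hv, hv0, huv⟩ := H937.dep_deriv H937.zA_deriv ha h0 h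
  refine H937.dep_of_mul hv0 hv ?_
  have h1 : v * a' = algebraMap ℂ H937.An (-1) * (u * (algebraMap ℂ H937.An Complex.I * H937.zA)) := by
    rw [map_neg, map_one]
    linear_combination huv
  rw [h1]
  exact H937.dep_mul (H937.dep_const _ _) (H937.dep_mul hu (H937.dep_mul (H937.dep_const _ _)
    (H937.dep_self _)))

/-- if the support function is algebraic then so is the radius of curvature -/
theorem algCl_curv {h : ℝ → ℝ} (hh : AnalyticOnNhd ℝ h univ) (H : AlgCl h) :
    AlgCl (fun x => h x + deriv (deriv h) x) := by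
  have hh1 : AnalyticOnNhd ℝ (deriv h) univ := hh.deriv
  have hh2 : AnalyticOnNhd ℝ (deriv (deriv h)) univ := hh1.deriv
  have d0 : H937.Dep H937.zA.1 (H937.ofR h hh).1 := by
    obtain ⟨P, hP, hP0⟩ := H
    exact ⟨P, hP, fun x => hP0 x⟩
  have d1 : H937.Dep H937.zA.1 (H937.ofR (deriv h) hh1).1 :=
    dep_der (fun x => ((hh x trivial).differentiableAt.hasDerivAt).ofReal_comp) d0
  have d2 : H937.Dep H937.zA.1 (H937.ofR (deriv (deriv h)) hh2).1 :=
    dep_der (fun x => ((hh1 x trivial).differentiableAt.hasDerivAt).ofReal_comp) d1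
  obtain ⟨P, hP, hP0⟩ := H937.dep_add d0 d2
  refine ⟨P, hP, fun x => ?_⟩
  have h1 : ((h x + deriv (deriv h) x : ℝ) : ℂ) =
      (H937.ofR h hh + H937.ofR (deriv (deriv h)) hh2).1 x := by
    rw [Complex.ofReal_add]
    rfl
  rw [h1]
  exact hP0 x

/-- a table integrable near the boundary whose support function is algebraic is an ellipse -/
theorem ellipse_of_supp (Z : PALG) {h : ℝ → ℝ} {η : ℝ} (h0 : 0 < η) (Hs : SmoothTable h)
    (hL : Collar h η ∨ H407.Leaves h η) (H : AlgCl h) : H407.IsEllipse h := by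
  have hc := collar_of h0 Hs hL
  obtain ⟨η', hη', hc'⟩ := hc
  have hT : IsTable h := ((equivalence Hs).2.1 ⟨η', hη', hc'⟩).1
  exact Z h η' hη' Hs hc' (algCl_curv (fun x _ => hT.1 x) H)

/-- literal form, radius of curvature -/
theorem domain_of_alg (Z : PALG) (B : H438.Table) (hB : B.IntegrableNearBoundary)
    (hr : AlgCl (fun x => H536.supp B.Ω x + deriv (deriv (H536.supp B.Ω)) x)) :
    H438.EllipseDomain B.Ω := by
  obtain ⟨η, hη, hc⟩ := B.collar_of_integrable hB
  have e : H536.supp B.Ω = B.hs := funext (H536.supp_eq B)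
  rw [e] at hr
  obtain ⟨a, b, φ, p, q, ha, hb, h⟩ := Z B.hs η hη B.hs_table hc hr
  exact B.ellipse_of_support ha hb fun ψ => congrFun h ψ

/-- literal form, algebraic boundary -/
theorem domain_of_curve (Z : PALG) (B : H438.Table) (hB : B.IntegrableNearBoundary)
    (hF : ∃ F : ℝ[X][X], F ≠ 0 ∧ ∀ z ∈ frontier B.Ω, F.evalEval z.re z.im = 0) :
    H438.EllipseDomain B.Ω := by
  obtain ⟨η, hη, hc⟩ := B.collar_of_integrable hB
  obtain ⟨F, hF, hF0⟩ := hF
  obtain ⟨a, b, φ, p, q, ha, hb, h⟩ := ellipse_of_curve Z hη B.hs_table (Or.inl hc)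
    ⟨F, hF, fun ψ => by
      refine hF0 _ ?_
      rw [B.bdry_hs, ← B.boundary]
      exact mem_range_self _⟩
  exact B.ellipse_of_support ha hb fun ψ => congrFun h ψ

end Vale.Agent.P097.Alg
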