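import Vale.Agent.P097.H202.PenA
import Vale.Agent.P097.H519.NZH2
import Vale.Agent.P097.H65.NZA
import Vale.Agent.P097.H990.K1
import Vale.Agent.P097.H24.K23
import Vale.Agent.P097.H123.AlgK1
import Vale.Agent.P097.H849.KB3
import Vale.Agent.P097.H330.KI7
import Vale.Agent.P097.H244.K5
import Vale.Agent.P097.H320.KC
import Vale.Agent.P097.H190.PPU
import Vale.Agent.P097.H898.NaG

/-! # P097 / ALG: assembly -/

set_option linter.all false

namespace Vale.Agent.P097.Alg

open Vale.Agent.P097.NZ Vale.Agent.P097.H402.Rat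

/-- all the kills at the finite ends -/
theorem kb_main : KB :=
  kb (fun σ f h1 h2 => H990.k1 σ h1 h2 f) (H24.pk2_of fun s f h1 h2 => H990.k1 s h1 h2 f)
    (H24.pk3_of H990.pk1) H123.kb2 H849.kb3

theorem palg_of (e1 : EndBd) (e2 : EndBdI) : PALG :=
  palg H202.pa (H247.realStart H65.rootA) (H898.pna e1 e2 H190.ppu) H320.pkc

end Vale.Agent.P097.Alg
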