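import Vale.Agent.P097.H402.Alg.Defs

/-! # P097 / ALG-NA, part 1: a separable polynomial for an algebraic function -/

set_option linter.all false

open Complex Metric Filter Topology Set Polynomial

namespace Vale.Agent.P097.Alg

/-- clearing denominators -/
theorem clear {K : Type*} [Field K] [Algebra ℂ[X] K] [IsFractionRing ℂ[X] K] (z : K[X]) :
    ∃ (w : ℂ[X][X]) (b : ℂ[X]), b ≠ 0 ∧ w.map (algebraMap ℂ[X] K) = C (algebraMap ℂ[X] K b) * z := by
  obtain ⟨⟨b, hb⟩, h⟩ := IsLocalization.integerNormalization_map_to_map (nonZeroDivisors ℂ[X]) z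
  refine ⟨IsLocalization.integerNormalization (nonZeroDivisors ℂ[X]) z, b,
    nonZeroDivisors.ne_zero hb, ?_⟩
  rw [h]
  ext i
  simp [Algebra.smul_def, Submonoid.smul_def]

theorem exists_sep' (K : Type*) [Field K] [Algebra ℂ[X] K] [IsFractionRing ℂ[X] K]
    (I : Ideal ℂ[X][X]) (hI : I.IsPrime) (hne : ∃ P ∈ I, P ≠ 0)
    (hC : ∀ p : ℂ[X], C p ∈ I → p = 0) (hX : (X : ℂ[X][X]) ∉ I) :
    ∃ (P A B : ℂ[X][X]) (D : ℂ[X]), P ∈ I ∧ 0 < P.natDegree ∧ D ≠ 0 ∧ P.coeff 0 ≠ 0 ∧
      A * P + B * derivative P = C D := by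
  classical
  -- minimal degree
  obtain ⟨P, ⟨hP, hP0⟩, hmin⟩ : ∃ P : ℂ[X][X], (P ∈ I ∧ P ≠ 0) ∧
      ∀ Q : ℂ[X][X], Q ∈ I → Q ≠ 0 → P.natDegree ≤ Q.natDegree := by
    obtain ⟨Q, hQ, hQ0⟩ := hne
    have hex : ∃ n : ℕ, ∃ Q : ℂ[X][X], (Q ∈ I ∧ Q ≠ 0) ∧ Q.natDegree = n := ⟨_, Q, ⟨hQ, hQ0⟩, rfl⟩
    obtain ⟨P, hP, hPn⟩ := Nat.find_spec hex
    refine ⟨P, hP, fun Q h1 h2 => ?_⟩
    rw [hPn]
    exact Nat.find_min' hex ⟨Q, ⟨h1, h2⟩, rfl⟩
  have hdeg : 0 < P.natDegree := by
    rcases Nat.eq_zero_or_pos P.natDegree with h | h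
    · exfalso
      rw [natDegree_eq_zero] at h
      obtain ⟨p, rfl⟩ := h
      exact hP0 (by rw [hC p hP]; simp)
    · exact h
  set ι := algebraMap ℂ[X] K with hι
  have hinj : Function.Injective ι := IsFractionRing.injective ℂ[X] K
  have hminj : Function.Injective (Polynomial.map ι) := Polynomial.map_injective ι hinj
  have hd0 : derivative P ≠ 0 := by
    intro h
    have := natDegree_eq_zero_of_derivative_eq_zero h
    omega
  have hnd : ∀ Q : ℂ[X][X], (Q.map ι).natDegree = Q.natDegree := fun Q =>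
    natDegree_map_eq_of_injective hinj Q
  have hcop : IsCoprime (P.map ι) ((derivative P).map ι) := by
    refine isCoprime_of_dvd _ _ ?_ ?_
    · rintro ⟨h1, -⟩
      exact hP0 (hminj (by rw [h1, Polynomial.map_zero]))
    · rintro z hz hz0 ⟨w, hw⟩ hz'
      have hPK : P.map ι ≠ 0 := fun h => hP0 (hminj (by rw [h, Polynomial.map_zero]))
      have hw0 : w ≠ 0 := by
        rintro rfl
        exact hPK (by rw [hw, mul_zero])
      have hz1 : 0 < z.natDegree := by
        rcases Nat.eq_zero_or_pos z.natDegree with h | h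
        · exfalso
          apply hz
          rw [natDegree_eq_zero] at h
          obtain ⟨c, rfl⟩ := h
          rw [isUnit_C]
          exact isUnit_iff_ne_zero.2 (fun h => hz0 (by rw [h, C_0]))
        · exact h
      have hsum : P.natDegree = z.natDegree + w.natDegree := by
        rw [← hnd P, hw, natDegree_mul hz0 hw0]
      have hz2 : z.natDegree < P.natDegree := by
        have h1 : z.natDegree ≤ ((derivative P).map ι).natDegree :=
          natDegree_le_of_dvd hz' (fun h => hd0 (hminj (by rw [h, Polynomial.map_zero])))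
        rw [hnd] at h1
        exact h1.trans_lt (natDegree_derivative_lt hdeg.ne')
      obtain ⟨z1, b1, hb1, hz1'⟩ := clear (K := K) z
      obtain ⟨w1, b2, hb2, hw1'⟩ := clear (K := K) w
      have e1 : z1 * w1 = C (b1 * b2) * P := by
        apply hminj
        rw [Polynomial.map_mul, hz1', hw1', Polynomial.map_mul, map_C, ← hι, hw, map_mul, C_mul]
        ring
      have hmem : z1 * w1 ∈ I := by
        rw [e1]
        exact I.mul_mem_left _ hP
      have hdz : z1.natDegree = z.natDegree := by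
        rw [← hnd z1, hz1', natDegree_C_mul]
        exact fun h => hb1 (hinj (by rw [h, map_zero]))
      have hdw : w1.natDegree = w.natDegree := by
        rw [← hnd w1, hw1', natDegree_C_mul]
        exact fun h => hb2 (hinj (by rw [h, map_zero]))
      have hz10 : z1 ≠ 0 := by
        rintro rfl
        rw [natDegree_zero] at hdz
        omega
      have hw10 : w1 ≠ 0 := by
        rintro rfl
        have : z1 * 0 = C (b1 * b2) * P := e1
        rw [mul_zero] at this
        have h3 := mul_eq_zero.1 this.symm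
        rcases h3 with h3 | h3
        · rw [C_eq_zero] at h3
          exact (mul_ne_zero hb1 hb2) h3
        · exact hP0 h3
      rcases hI.mem_or_mem hmem with h | h
      · have := hmin z1 h hz10
        omega
      · have := hmin w1 h hw10
        omega
  obtain ⟨a, b, hab⟩ := hcop
  obtain ⟨a1, da, hda, ha⟩ := clear (K := K) a
  obtain ⟨b1, db, hdb, hb⟩ := clear (K := K) b
  refine ⟨P, C db * a1, C da * b1, da * db, hP, hdeg, mul_ne_zero hda hdb, ?_, ?_⟩
  · intro h0
    obtain ⟨Q, hQ⟩ := X_dvd_iff.2 h0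
    have hQ0 : Q ≠ 0 := by
      rintro rfl
      exact hP0 (by rw [hQ, mul_zero])
    have h1 : Q ∈ I := by
      rw [hQ] at hP
      exact (hI.mem_or_mem hP).resolve_left hX
    have h2 := hmin Q h1 hQ0
    rw [hQ, natDegree_X_mul hQ0] at h2
    omega
  · apply hminj
    rw [Polynomial.map_add, Polynomial.map_mul, Polynomial.map_mul, Polynomial.map_mul,
      Polynomial.map_mul, map_C, map_C, map_C, ha, hb, ← hι]
    calc C (ι db) * (C (ι da) * a) * P.map ι + C (ι da) * (C (ι db) * b) * (derivative P).map ι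
        = C (ι da) * C (ι db) * (a * P.map ι + b * (derivative P).map ι) := by ring
      _ = C (ι (da * db)) := by rw [hab, mul_one, map_mul, C_mul]

theorem exists_sep (I : Ideal ℂ[X][X]) (hI : I.IsPrime) (hne : ∃ P ∈ I, P ≠ 0)
    (hC : ∀ p : ℂ[X], C p ∈ I → p = 0) (hX : (X : ℂ[X][X]) ∉ I) :
    ∃ (P A B : ℂ[X][X]) (D : ℂ[X]), P ∈ I ∧ 0 < P.natDegree ∧ D ≠ 0 ∧ P.coeff 0 ≠ 0 ∧
      A * P + B * derivative P = C D :=
  exists_sep' (FractionRing ℂ[X]) I hI hne hC hX

end Vale.Agent.P097.Alg
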