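import Vale.Agent.P097.H402.Alg.Defs
import Vale.Agent.P097.H779.Impl

/-! # P097 / ALG-NA, part 2: local branches of an algebraic function of `exp (i ψ)` -/

set_option linter.all false

open Complex Metric Filter Topology Set Polynomial

namespace Vale.Agent.P097.Alg

open Vale.Agent.P097.H402.Rat Vale.Agent.P097.NZ

theorem evalEval_sum' (P : ℂ[X][X]) (x y : ℂ) :
    P.evalEval x y = ∑ i ∈ Finset.range (P.natDegree + 1), (P.coeff i).eval x * y ^ i := by
  have h : eval (C y) P = ∑ i ∈ Finset.range (P.natDegree + 1), P.coeff i * C y ^ i :=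
    eval_eq_sum_range _
  rw [evalEval, h, eval_finsetSum]
  refine Finset.sum_congr rfl fun i _ => ?_
  rw [eval_mul, eval_pow, eval_C]

theorem an_eval {E : Type*} [NormedAddCommGroup E] [NormedSpace ℂ E] {f : E → ℂ} {p : E}
    (hf : AnalyticAt ℂ f p) (Q : ℂ[X]) : AnalyticAt ℂ (fun q => Q.eval (f q)) p := by
  have h : (fun q => Q.eval (f q)) =
      fun q => ∑ i ∈ Finset.range (Q.natDegree + 1), Q.coeff i * f q ^ i := by
    funext q
    rw [eval_eq_sum_range]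
  rw [h]
  exact Finset.analyticAt_fun_sum _ fun i _ => analyticAt_const.mul (hf.fun_pow i)

theorem an_evalEval {E : Type*} [NormedAddCommGroup E] [NormedSpace ℂ E] {f g : E → ℂ} {p : E}
    (hf : AnalyticAt ℂ f p) (hg : AnalyticAt ℂ g p) (P : ℂ[X][X]) :
    AnalyticAt ℂ (fun q => P.evalEval (f q) (g q)) p := by
  simp only [evalEval_sum']
  exact Finset.analyticAt_fun_sum _ fun i _ => (an_eval hf _).mul (hg.fun_pow i)

theorem an_ez {E : Type*} [NormedAddCommGroup E] [NormedSpace ℂ E] {f : E → ℂ} {p : E}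
    (hf : AnalyticAt ℂ f p) : AnalyticAt ℂ (fun q => ez (f q)) p := by
  unfold ez
  exact (analyticAt_const.mul hf).cexp

theorem deriv_evalEval (P : ℂ[X][X]) (x y : ℂ) :
    HasDerivAt (fun y => P.evalEval x y) ((derivative P).evalEval x y) y := by
  have h := (P.map (evalRingHom x)).hasDerivAt y
  have h1 : (fun y => P.evalEval x y) = fun y => (P.map (evalRingHom x)).eval y := by
    funext y
    rw [map_evalRingHom_eval]
  have h2 : (derivative P).evalEval x y = (derivative (P.map (evalRingHom x))).eval y := by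
    rw [derivative_map, map_evalRingHom_eval]
  rw [h1, h2]
  exact h

theorem exists_br (P : ℂ[X][X]) (ψ Y : ℂ) (hP : P.evalEval (ez ψ) Y = 0)
    (hP' : (derivative P).evalEval (ez ψ) Y ≠ 0) :
    ∃ g : ℂ → ℂ, AnalyticAt ℂ g ψ ∧ g ψ = Y ∧ (∀ᶠ w in 𝓝 ψ, P.evalEval (ez w) (g w) = 0) ∧
      ∀ᶠ v in 𝓝 ((ψ, Y) : ℂ × ℂ), P.evalEval (ez v.1) v.2 = 0 → g v.1 = v.2 := by
  have h1 : AnalyticAt ℂ (fun v : ℂ × ℂ => P.evalEval (ez (ψ + v.1)) (Y + v.2)) (0, 0) :=
    an_evalEval (an_ez (analyticAt_const.add analyticAt_fst)) (analyticAt_const.add analyticAt_snd) P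
  have h2 : HasDerivAt (fun J => P.evalEval (ez (ψ + 0)) (Y + J))
      ((derivative P).evalEval (ez ψ) Y) 0 := by
    have h3 := deriv_evalEval P (ez ψ) (Y + 0)
    have h4 : HasDerivAt (fun J : ℂ => Y + J) 1 0 := (hasDerivAt_id (0 : ℂ)).const_add Y
    have h5 := h3.comp (0 : ℂ) h4
    rw [add_zero, mul_one] at h5
    rw [add_zero]
    exact h5
  obtain ⟨φ, a1, a2, a3, a4⟩ := H779.impl (fun v : ℂ × ℂ => P.evalEval (ez (ψ + v.1)) (Y + v.2)) h1
    (by simpa using hP) _ h2 hP'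
  have t1 : Tendsto (fun w : ℂ => w - ψ) (𝓝 ψ) (𝓝 0) := by
    have : Tendsto (fun w : ℂ => w - ψ) (𝓝 ψ) (𝓝 (ψ - ψ)) :=
      (continuous_id.sub continuous_const).tendsto ψ
    rwa [sub_self] at this
  refine ⟨fun w => Y + φ (w - ψ), ?_, ?_, ?_, ?_⟩
  · refine analyticAt_const.add ?_
    refine AnalyticAt.comp' (f := fun w : ℂ => w - ψ) (g := φ) ?_
      (analyticAt_id.sub analyticAt_const)
    rw [sub_self]
    exact a1
  · simp only [sub_self, a2, add_zero]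
  · filter_upwards [t1.eventually a3] with w hw
    rw [add_sub_cancel] at hw
    exact hw
  · have t2 : Tendsto (fun v : ℂ × ℂ => (v.1 - ψ, v.2 - Y)) (𝓝 (ψ, Y)) (𝓝 (0, 0)) := by
      have : Tendsto (fun v : ℂ × ℂ => (v.1 - ψ, v.2 - Y)) (𝓝 (ψ, Y)) (𝓝 (ψ - ψ, Y - Y)) :=
        ((continuous_fst.sub continuous_const).prodMk
          (continuous_snd.sub continuous_const)).tendsto (ψ, Y)
      rwa [sub_self, sub_self] at this
    filter_upwards [t2.eventually a4] with v hv hv0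
    have h3 : φ (v.1 - ψ) = v.2 - Y := hv (by simpa using hv0)
    show Y + φ (v.1 - ψ) = v.2
    rw [h3]
    ring

open Classical in
/-- the branch through the point `(ψ, Y)` -/
noncomputable def br (P : ℂ[X][X]) (ψ Y : ℂ) : ℂ → ℂ :=
  if h : ∃ g : ℂ → ℂ, AnalyticAt ℂ g ψ ∧ g ψ = Y ∧ (∀ᶠ w in 𝓝 ψ, P.evalEval (ez w) (g w) = 0) ∧
      ∀ᶠ v in 𝓝 ((ψ, Y) : ℂ × ℂ), P.evalEval (ez v.1) v.2 = 0 → g v.1 = v.2
  then h.choose else fun _ => Y

theorem br_spec (P : ℂ[X][X]) (ψ Y : ℂ) (hP : P.evalEval (ez ψ) Y = 0)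
    (hP' : (derivative P).evalEval (ez ψ) Y ≠ 0) :
    AnalyticAt ℂ (br P ψ Y) ψ ∧ br P ψ Y ψ = Y ∧
      (∀ᶠ w in 𝓝 ψ, P.evalEval (ez w) (br P ψ Y w) = 0) ∧
      ∀ᶠ v in 𝓝 ((ψ, Y) : ℂ × ℂ), P.evalEval (ez v.1) v.2 = 0 → br P ψ Y v.1 = v.2 := by
  have h := exists_br P ψ Y hP hP'
  unfold br
  rw [dif_pos h]
  exact h.choose_spec

/-- uniqueness of the branch -/
theorem br_unique (P : ℂ[X][X]) (ψ Y : ℂ) (hP : P.evalEval (ez ψ) Y = 0)
    (hP' : (derivative P).evalEval (ez ψ) Y ≠ 0) {g : ℂ → ℂ} (hg : ContinuousAt g ψ)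
    (hgY : g ψ = Y) (h : ∀ᶠ w in 𝓝 ψ, P.evalEval (ez w) (g w) = 0) : br P ψ Y =ᶠ[𝓝 ψ] g := by
  have h1 := (br_spec P ψ Y hP hP').2.2.2
  have t : Tendsto (fun w : ℂ => (w, g w)) (𝓝 ψ) (𝓝 (ψ, Y)) := by
    rw [← hgY]
    exact (continuousAt_id.prodMk hg).tendsto
  filter_upwards [t.eventually h1, h] with w a b
  exact a b

/-! ## regular angles -/

/-- `P` is separable, with non zero constant term -/
structure SepP (P A B : ℂ[X][X]) (D : ℂ[X]) : Prop where
  hd : 0 < P.natDegree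
  h0 : P.coeff 0 ≠ 0
  hD : D ≠ 0
  hAB : A * P + B * derivative P = C D

/-- regular angles -/
def Reg (P : ℂ[X][X]) (D : ℂ[X]) (ψ : ℂ) : Prop :=
  (P.leadingCoeff * P.coeff 0 * D).eval (ez ψ) ≠ 0

theorem Reg.lead {P : ℂ[X][X]} {D : ℂ[X]} {ψ : ℂ} (h : Reg P D ψ) :
    P.leadingCoeff.eval (ez ψ) ≠ 0 := by
  unfold Reg at h
  rw [eval_mul, eval_mul] at h
  exact left_ne_zero_of_mul (left_ne_zero_of_mul h)

theorem Reg.low {P : ℂ[X][X]} {D : ℂ[X]} {ψ : ℂ} (h : Reg P D ψ) :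
    (P.coeff 0).eval (ez ψ) ≠ 0 := by
  unfold Reg at h
  rw [eval_mul, eval_mul] at h
  exact right_ne_zero_of_mul (left_ne_zero_of_mul h)

theorem Reg.disc {P : ℂ[X][X]} {D : ℂ[X]} {ψ : ℂ} (h : Reg P D ψ) : D.eval (ez ψ) ≠ 0 := by
  unfold Reg at h
  rw [eval_mul, eval_mul] at h
  exact right_ne_zero_of_mul h

theorem Reg.eventually {P : ℂ[X][X]} {D : ℂ[X]} {ψ : ℂ} (h : Reg P D ψ) :
    ∀ᶠ w in 𝓝 ψ, Reg P D w :=
  (an_eval (an_ez analyticAt_id) (P.leadingCoeff * P.coeff 0 * D)).continuousAt.eventually_ne h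

variable {P A B : ℂ[X][X]} {D : ℂ[X]}

theorem SepP.der (S : SepP P A B D) {ψ Y : ℂ} (h : Reg P D ψ) (hY : P.evalEval (ez ψ) Y = 0) :
    (derivative P).evalEval (ez ψ) Y ≠ 0 := by
  intro h1
  have h2 := congrArg (fun Q => Polynomial.evalEval (ez ψ) Y Q) S.hAB
  simp only [evalEval_add, evalEval_mul, evalEval_C] at h2
  rw [hY, h1, mul_zero, mul_zero, add_zero] at h2
  exact h.disc h2.symm

theorem SepP.ne0 (S : SepP P A B D) {ψ Y : ℂ} (h : Reg P D ψ) (hY : P.evalEval (ez ψ) Y = 0) :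
    Y ≠ 0 := by
  rintro rfl
  apply h.low
  rw [← hY, evalEval_sum', Finset.sum_eq_single 0]
  · simp
  · intro i _ hi
    rw [zero_pow hi, mul_zero]
  · intro h2
    exact absurd (Finset.mem_range.2 (Nat.succ_pos _)) h2

/-- the values of the algebraic function -/
noncomputable def rts (P : ℂ[X][X]) (ψ : ℂ) : Finset ℂ := (P.map (evalRingHom (ez ψ))).roots.toFinset

theorem mem_rts (S : SepP P A B D) {ψ : ℂ} (h : Reg P D ψ) (Y : ℂ) :
    Y ∈ rts P ψ ↔ P.evalEval (ez ψ) Y = 0 := by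
  have hne : P.map (evalRingHom (ez ψ)) ≠ 0 := by
    intro h1
    apply h.lead
    have h2 := congrArg (fun Q => Polynomial.coeff Q P.natDegree) h1
    simpa using h2
  unfold rts
  rw [Multiset.mem_toFinset, mem_roots hne, IsRoot.def, map_evalRingHom_eval]

theorem card_rts_le (P : ℂ[X][X]) (ψ : ℂ) : (rts P ψ).card ≤ P.natDegree :=
  (Multiset.toFinset_card_le _).trans ((card_roots' _).trans natDegree_map_le)

theorem card_rts (S : SepP P A B D) {ψ : ℂ} (h : Reg P D ψ) : (rts P ψ).card = P.natDegree := by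
  have h1 : (P.map (evalRingHom (ez ψ))).natDegree = P.natDegree :=
    natDegree_map_of_leadingCoeff_ne_zero _ h.lead
  have hsep : (P.map (evalRingHom (ez ψ))).Separable := by
    have hc : D.eval (ez ψ) ≠ 0 := h.disc
    refine ⟨C (D.eval (ez ψ))⁻¹ * A.map (evalRingHom (ez ψ)),
      C (D.eval (ez ψ))⁻¹ * B.map (evalRingHom (ez ψ)), ?_⟩
    have h2 := congrArg (fun Q => Polynomial.map (evalRingHom (ez ψ)) Q) S.hAB
    simp only [Polynomial.map_add, Polynomial.map_mul, map_C, coe_evalRingHom] at h2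
    rw [derivative_map]
    calc _ = C (D.eval (ez ψ))⁻¹ * (A.map (evalRingHom (ez ψ)) * P.map (evalRingHom (ez ψ)) +
          B.map (evalRingHom (ez ψ)) * (derivative P).map (evalRingHom (ez ψ))) := by ring
      _ = C (D.eval (ez ψ))⁻¹ * C (D.eval (ez ψ)) := by rw [h2]
      _ = 1 := by rw [← C_mul, inv_mul_cancel₀ hc, C_1]
  unfold rts
  rw [Multiset.toFinset_card_of_nodup (nodup_roots hsep), ← h1]
  exact ((IsAlgClosed.splits _).natDegree_eq_card_roots).symm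

end Vale.Agent.P097.Alg
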