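import Vale.Agent.P097.H402.Alg.Defs

/-! # P097 / ALG-NA: goodness is invariant under translations of the angle -/

set_option linter.all false

open Complex Metric Filter Topology Set

namespace Vale.Agent.P097.Alg

open Vale.Agent.P097.NZ

theorem kr_shift (ρ : ℂ → ℂ) (a : ℂ) (p : ℂ × ℂ) :
    kr (fun w => ρ (w + a)) p = kr ρ (p.1 + a, p.2) := by
  funext v
  simp only [kr]
  congr 2
  ring

theorem TT_shift (ρ : ℂ → ℂ) (a : ℂ) (p : ℂ × ℂ) :
    TT ρ (p.1 + a, p.2) = ((TT (fun w => ρ (w + a)) p).1 + a, (TT (fun w => ρ (w + a)) p).2) := by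
  simp only [TT, kr_shift]
  congr 1
  ring

theorem iter_shift (ρ : ℂ → ℂ) (a : ℂ) (k : ℕ) (p : ℂ × ℂ) :
    (TT ρ)^[k] (p.1 + a, p.2) =
      (((TT (fun w => ρ (w + a)))^[k] p).1 + a, ((TT (fun w => ρ (w + a)))^[k] p).2) := by
  induction k with
  | zero => simp
  | succ k ih => rw [Function.iterate_succ_apply', ih, TT_shift, Function.iterate_succ_apply']

theorem alt_choose (n : ℕ) (hn : n ≠ 0) :
    ∑ k ∈ Finset.range (n + 1), (-1 : ℂ) ^ (n - k) * (n.choose k : ℂ) = 0 := by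
  have h := add_pow (1 : ℂ) (-1) n
  rw [add_neg_cancel, zero_pow hn] at h
  rw [h]
  refine Finset.sum_congr rfl fun k _ => ?_
  rw [one_pow, one_mul]

theorem Dk_shift (ρ : ℂ → ℂ) (a : ℂ) (m : ℕ) (p : ℂ × ℂ) :
    Dk (TT ρ) m (p.1 + a, p.2) = Dk (TT (fun w => ρ (w + a))) m p := by
  unfold Dk
  refine Finset.sum_congr rfl fun n hn => ?_
  congr 1
  have hn0 : n ≠ 0 := by
    have := (Finset.mem_Icc.1 hn).1
    omega
  have : ∑ k ∈ Finset.range (n + 1), (-1 : ℂ) ^ (n - k) * (n.choose k : ℂ) *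
      ((TT ρ)^[k] (p.1 + a, p.2)).1 = ∑ k ∈ Finset.range (n + 1), ((-1 : ℂ) ^ (n - k) *
      (n.choose k : ℂ) * ((TT (fun w => ρ (w + a)))^[k] p).1 +
      (-1 : ℂ) ^ (n - k) * (n.choose k : ℂ) * a) := by
    refine Finset.sum_congr rfl fun k _ => ?_
    rw [iter_shift]
    ring
  rw [this, Finset.sum_add_distrib, ← Finset.sum_mul, alt_choose n hn0, zero_mul, add_zero]

theorem Ik_shift (ρ : ℂ → ℂ) (a : ℂ) (k : ℕ) (z : ℂ) :
    Ik (fun w => ρ (w + a)) k z = Ik ρ k (z + a) := by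
  simp only [Ik, tc]
  congr 4
  funext δ
  rw [← Dk_shift ρ a k (z, δ)]

theorem tendsto_shift (a z : ℂ) : Tendsto (fun w : ℂ => w + a) (𝓝 z) (𝓝 (z + a)) :=
  (continuous_id.add continuous_const).tendsto z

theorem good_shift_mpr (ρ : ℂ → ℂ) (a z : ℂ) (h : Good (Ik ρ) (TT ρ) (z + a)) :
    Good (Ik (fun w => ρ (w + a))) (TT (fun w => ρ (w + a))) z := by
  obtain ⟨hol, ⟨C, B, r, hB, hr, hbd⟩, inv, odd⟩ := h
  have hI : ∀ k, Ik (fun w => ρ (w + a)) k = fun z => Ik ρ k (z + a) := fun k =>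
    funext fun z => Ik_shift ρ a k z
  refine ⟨?_, ⟨C, B, r, hB, hr, fun z' hz' k => ?_⟩, ?_, ?_⟩
  · filter_upwards [(tendsto_shift a z).eventually hol] with z' hz' k
    rw [hI k]
    exact AnalyticAt.comp' (f := fun w : ℂ => w + a) (g := Ik ρ k) (hz' k)
      (analyticAt_id.add analyticAt_const)
  · rw [hI k]
    refine hbd _ ?_ k
    rw [mem_ball, dist_add_right]
    exact hz'
  · have ht : Tendsto (fun p : ℂ × ℂ => (p.1 + a, p.2)) (𝓝 ((z, 0) : ℂ × ℂ))
        (𝓝 ((z + a, 0) : ℂ × ℂ)) :=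
      ((continuous_fst.add continuous_const).prodMk continuous_snd).tendsto (z, 0)
    filter_upwards [ht.eventually inv] with p hp
    have hS : ∀ q : ℂ × ℂ, Sm (Ik fun w => ρ (w + a)) q = Sm (Ik ρ) (q.1 + a, q.2) := by
      intro q
      simp only [Sm, Ik_shift]
    rw [hS, hS, ← hp, TT_shift]
  · filter_upwards [(tendsto_shift a z).eventually odd] with z' hz' k hk
    rw [hI k]
    exact hz' k hk

theorem good_shift (ρ : ℂ → ℂ) (a z : ℂ) : Good (Ik ρ) (TT ρ) (z + a) ↔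
    Good (Ik (fun w => ρ (w + a))) (TT (fun w => ρ (w + a))) z := by
  refine ⟨good_shift_mpr ρ a z, fun h => ?_⟩
  have h1 : Good (Ik (fun w => ρ (w + a))) (TT (fun w => ρ (w + a))) (z + a + -a) := by
    rw [add_neg_cancel_right]
    exact h
  have h2 := good_shift_mpr (fun w => ρ (w + a)) (-a) (z + a) h1
  have h3 : (fun w => ρ (w + -a + a)) = ρ := by
    funext w
    rw [neg_add_cancel_right]
  rw [h3] at h2
  exact h2

theorem deriv_shift (ρ : ℂ → ℂ) (a : ℂ) : deriv (fun w => ρ (w + a)) = fun z => deriv ρ (z + a) := by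
  funext z
  exact deriv_comp_add_const ρ a z

theorem kap_shift (ρ : ℂ → ℂ) (a z : ℂ) : kap (fun w => ρ (w + a)) z = kap ρ (z + a) := by
  simp only [kap, deriv_shift]

end Vale.Agent.P097.Alg
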