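import Vale.Agent.P097.H402.Alg.NA2
import Vale.Agent.P097.H402.Alg.Shift
import Vale.Agent.P097.H367.ContG

/-! # P097 / ALG-NA, part 3: the norm function of the conic invariant -/

set_option linter.all false

open Complex Metric Filter Topology Set Polynomial

namespace Vale.Agent.P097.Alg

open Vale.Agent.P097.H402.Rat Vale.Agent.P097.NZ Vale.Agent.P097.H367.PropD

variable {P A B : ℂ[X][X]} {D : ℂ[X]}

theorem kap_congr {ρ ρ' : ℂ → ℂ} {ψ : ℂ} (h : ρ =ᶠ[𝓝 ψ] ρ') : kap ρ ψ = kap ρ' ψ := by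
  simp only [kap, h.eq_of_nhds, h.deriv_eq, h.deriv.deriv_eq]

theorem kap_an {ρ : ℂ → ℂ} {ψ : ℂ} (h : AnalyticAt ℂ ρ ψ) (h0 : ρ ψ ≠ 0) :
    AnalyticAt ℂ (kap ρ) ψ := by
  unfold kap
  have h1 := h.deriv
  have h2 := h1.deriv
  refine AnalyticAt.div ?_ (h.fun_pow 8) (pow_ne_zero _ h0)
  exact (((analyticAt_const.mul (h.fun_pow 2)).add (analyticAt_const.mul (h1.fun_pow 2))).sub
    (analyticAt_const.mul (h.mul h2))).fun_pow 3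

theorem ez_per (ψ : ℂ) : ez (ψ + 2 * Real.pi) = ez ψ := by
  unfold ez
  rw [mul_add, Complex.exp_add]
  have : Complex.exp (I * (2 * Real.pi)) = 1 := by
    rw [show I * (2 * (Real.pi : ℂ)) = 2 * Real.pi * I by ring]
    exact Complex.exp_two_pi_mul_I
  rw [this, mul_one]

/-- the branch through `(ψ, Y)` is good -/
def Gd (P : ℂ[X][X]) (ψ Y : ℂ) : Prop := Good (Ik (br P ψ Y)) (TT (br P ψ Y)) ψ

open Classical in
/-- the norm -/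
noncomputable def FT (P : ℂ[X][X]) (T ψ : ℂ) : ℂ :=
  ∏ Y ∈ rts P ψ, if Gd P ψ Y then T - kap (br P ψ Y) ψ else 1

theorem SepP.spec (S : SepP P A B D) {ψ Y : ℂ} (h : Reg P D ψ) (hY : Y ∈ rts P ψ) :
    AnalyticAt ℂ (br P ψ Y) ψ ∧ br P ψ Y ψ = Y ∧
      (∀ᶠ w in 𝓝 ψ, P.evalEval (ez w) (br P ψ Y w) = 0) ∧
      ∀ᶠ v in 𝓝 ((ψ, Y) : ℂ × ℂ), P.evalEval (ez v.1) v.2 = 0 → br P ψ Y v.1 = v.2 := by
  have h1 := (mem_rts S h Y).1 hY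
  exact br_spec P ψ Y h1 (S.der h h1)

theorem gd_congr (A0 : RootA) (S : SepP P A B D) {ψ Y : ℂ} (h : Reg P D ψ) (hY : Y ∈ rts P ψ)
    {g : ℂ → ℂ} (hg : br P ψ Y =ᶠ[𝓝 ψ] g) : Gd P ψ Y ↔ Good (Ik g) (TT g) ψ := by
  have h1 := S.spec h hY
  have h2 : br P ψ Y ψ ≠ 0 := by
    rw [h1.2.1]
    exact S.ne0 h ((mem_rts S h Y).1 hY)
  constructor
  · intro h3
    exact Good.of_germ A0 hg h1.1 h2 h3
  · intro h3
    refine Good.of_germ A0 hg.symm (h1.1.congr hg) ?_ h3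
    rw [← hg.eq_of_nhds]
    exact h2

theorem loc1 (A0 : RootA) (S : SepP P A B D) {ψ₀ Y : ℂ} (h : Reg P D ψ₀) (hY : Y ∈ rts P ψ₀) :
    ∀ᶠ ψ in 𝓝 ψ₀, P.evalEval (ez ψ) (br P ψ₀ Y ψ) = 0 ∧ br P ψ₀ Y ψ ≠ 0 ∧
      AnalyticAt ℂ (br P ψ₀ Y) ψ ∧ br P ψ (br P ψ₀ Y ψ) =ᶠ[𝓝 ψ] br P ψ₀ Y ∧
      (Gd P ψ (br P ψ₀ Y ψ) ↔ Gd P ψ₀ Y) := by
  obtain ⟨h1, h2, h3, h4⟩ := S.spec h hY
  have h5 : br P ψ₀ Y ψ₀ ≠ 0 := by
    rw [h2]
    exact S.ne0 h ((mem_rts S h Y).1 hY)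
  have h6 : ∀ᶠ ψ in 𝓝 ψ₀, AnalyticAt ℂ (br P ψ₀ Y) ψ ∧ br P ψ₀ Y ψ ≠ 0 :=
    h1.eventually_analyticAt.and (h1.continuousAt.eventually_ne h5)
  obtain ⟨r, hr, h7⟩ := Metric.eventually_nhds_iff_ball.1 h6
  filter_upwards [h3, h3.eventually_nhds, h6, h.eventually, ball_mem_nhds ψ₀ hr] with ψ a1 a2 a3 a4 a5
  have a6 : br P ψ (br P ψ₀ Y ψ) =ᶠ[𝓝 ψ] br P ψ₀ Y :=
    br_unique P ψ _ a1 (S.der a4 a1) a3.1.continuousAt rfl a2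
  refine ⟨a1, a3.2, a3.1, a6, ?_⟩
  rw [gd_congr A0 S a4 ((mem_rts S a4 _).2 a1) a6]
  constructor
  · intro b
    exact propB A0 (br P ψ₀ Y) ψ₀ ψ r h7 a5 b ψ₀ (mem_ball_self hr)
  · intro b
    exact propB A0 (br P ψ₀ Y) ψ₀ ψ₀ r h7 (mem_ball_self hr) b ψ a5

theorem loc2 (A0 : RootA) (S : SepP P A B D) {ψ₀ : ℂ} (h : Reg P D ψ₀) :
    ∀ᶠ ψ in 𝓝 ψ₀, rts P ψ = (rts P ψ₀).image (fun Y => br P ψ₀ Y ψ) ∧
      Set.InjOn (fun Y => br P ψ₀ Y ψ) (rts P ψ₀) := by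
  have h1 : ∀ᶠ ψ in 𝓝 ψ₀, ∀ Y ∈ rts P ψ₀, P.evalEval (ez ψ) (br P ψ₀ Y ψ) = 0 :=
    (Finset.eventually_all _).2 fun Y hY => (loc1 A0 S h hY).mono fun ψ hψ => hψ.1
  have h2 : ∀ᶠ ψ in 𝓝 ψ₀, ∀ Y ∈ rts P ψ₀, ∀ Y' ∈ rts P ψ₀, Y ≠ Y' →
      br P ψ₀ Y ψ ≠ br P ψ₀ Y' ψ := by
    refine (Finset.eventually_all _).2 fun Y hY => (Finset.eventually_all _).2 fun Y' hY' => ?_
    by_cases hYY : Y = Y'
    · exact Eventually.of_forall fun ψ hne => absurd hYY hne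
    · have a := S.spec h hY
      have b := S.spec h hY'
      have c : ∀ᶠ ψ in 𝓝 ψ₀, br P ψ₀ Y ψ - br P ψ₀ Y' ψ ≠ 0 := by
        refine (a.1.continuousAt.sub b.1.continuousAt).eventually_ne ?_
        rw [Pi.sub_apply, a.2.1, b.2.1]
        exact sub_ne_zero.2 hYY
      exact c.mono fun ψ hψ _ => sub_ne_zero.1 hψ
  filter_upwards [h1, h2, h.eventually] with ψ a1 a2 a3
  have hinj : Set.InjOn (fun Y => br P ψ₀ Y ψ) (rts P ψ₀) := by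
    intro Y hY Y' hY' hYY
    by_contra hne
    exact a2 Y hY Y' hY' hne hYY
  refine ⟨?_, hinj⟩
  symm
  apply Finset.eq_of_subset_of_card_le
  · intro y hy
    obtain ⟨Y, hY, rfl⟩ := Finset.mem_image.1 hy
    exact (mem_rts S a3 _).2 (a1 Y hY)
  · rw [Finset.card_image_of_injOn hinj, card_rts S a3, card_rts S h]

open Classical in
theorem FT_loc (A0 : RootA) (S : SepP P A B D) {ψ₀ : ℂ} (h : Reg P D ψ₀) (T : ℂ) :
    ∀ᶠ ψ in 𝓝 ψ₀, FT P T ψ =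
      ∏ Y ∈ rts P ψ₀, if Gd P ψ₀ Y then T - kap (br P ψ₀ Y) ψ else 1 := by
  have h1 : ∀ᶠ ψ in 𝓝 ψ₀, ∀ Y ∈ rts P ψ₀, br P ψ (br P ψ₀ Y ψ) =ᶠ[𝓝 ψ] br P ψ₀ Y ∧
      (Gd P ψ (br P ψ₀ Y ψ) ↔ Gd P ψ₀ Y) :=
    (Finset.eventually_all _).2 fun Y hY => (loc1 A0 S h hY).mono fun ψ hψ => hψ.2.2.2
  filter_upwards [h1, loc2 A0 S h] with ψ a1 ⟨a2, a3⟩
  unfold FT
  rw [a2, Finset.prod_image a3]
  refine Finset.prod_congr rfl fun Y hY => ?_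
  obtain ⟨b1, b2⟩ := a1 Y hY
  rw [kap_congr b1]
  by_cases hG : Gd P ψ₀ Y
  · rw [if_pos hG, if_pos (b2.2 hG)]
  · rw [if_neg hG, if_neg (fun h => hG (b2.1 h))]

theorem FT_an (A0 : RootA) (S : SepP P A B D) {ψ₀ : ℂ} (h : Reg P D ψ₀) (T : ℂ) :
    AnalyticAt ℂ (FT P T) ψ₀ := by
  classical
  have hloc := FT_loc A0 S h T
  refine AnalyticAt.congr ?_ (hloc.mono fun ψ hψ => hψ.symm)
  refine Finset.analyticAt_fun_prod _ fun Y hY => ?_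
  by_cases hG : Gd P ψ₀ Y
  · simp only [if_pos hG]
    have h1 := S.spec h hY
    refine analyticAt_const.sub (kap_an h1.1 ?_)
    rw [h1.2.1]
    exact S.ne0 h ((mem_rts S h Y).1 hY)
  · simp only [if_neg hG]
    exact analyticAt_const

theorem Reg.per {ψ : ℂ} (h : Reg P D ψ) : Reg P D (ψ + 2 * Real.pi) := by
  unfold Reg at h ⊢
  rw [ez_per]
  exact h

theorem rts_per (P : ℂ[X][X]) (ψ : ℂ) : rts P (ψ + 2 * Real.pi) = rts P ψ := by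
  unfold rts
  rw [ez_per]

theorem FT_per (A0 : RootA) (S : SepP P A B D) {ψ : ℂ} (h : Reg P D ψ) (T : ℂ) :
    FT P T (ψ + 2 * Real.pi) = FT P T ψ := by
  classical
  unfold FT
  rw [rts_per]
  refine Finset.prod_congr rfl fun Y hY => ?_
  have h1 := S.spec h hY
  have hY' : Y ∈ rts P (ψ + 2 * Real.pi) := by
    rw [rts_per]
    exact hY
  have h2 := S.spec h.per hY'
  have h3 : br P ψ Y =ᶠ[𝓝 ψ] fun w => br P (ψ + 2 * Real.pi) Y (w + 2 * Real.pi) := by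
    have e := (mem_rts S h Y).1 hY
    refine br_unique P ψ Y e (S.der h e) ?_ h2.2.1 ?_
    · exact ContinuousAt.comp' (f := fun w : ℂ => w + 2 * Real.pi) h2.1.continuousAt
        (continuousAt_id.add continuousAt_const)
    · filter_upwards [(tendsto_shift (2 * Real.pi) ψ).eventually h2.2.2.1] with w hw
      rw [ez_per] at hw
      exact hw
  have h4 : Gd P (ψ + 2 * Real.pi) Y ↔ Gd P ψ Y := by
    rw [gd_congr A0 S h hY h3]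
    exact good_shift (br P (ψ + 2 * Real.pi) Y) (2 * Real.pi) ψ
  rw [kap_congr h3, kap_shift]
  by_cases hG : Gd P ψ Y
  · rw [if_pos hG, if_pos (h4.2 hG)]
  · rw [if_neg hG, if_neg (fun h => hG (h4.1 h))]

end Vale.Agent.P097.Alg
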