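import Vale.Agent.P097.H402.Alg.Shift
import Vale.Agent.P097.H402.Alg.NA2
import Vale.Agent.P097.H367.ContG

/-! # P097 / ALG-NA: the conic invariant of the good branches is bounded at infinity -/

set_option linter.all false

open Complex Metric Filter Topology Set Polynomial

namespace Vale.Agent.P097.Alg

open Vale.Agent.P097.H402.Rat Vale.Agent.P097.NZ Vale.Agent.P097.H367.PropD

/-- the branch `ξ ^ k R(ξ)`, `ξ = c exp (s i ψ / N)` -/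
noncomputable def Gc (s : ℂ) (N : ℕ) (k : ℤ) (R : ℂ → ℂ) (c ψ : ℂ) : ℂ :=
  (c * Complex.exp (s * I * ψ / N)) ^ k * R (c * Complex.exp (s * I * ψ / N))

theorem xiI_eq (s : ℂ) (N : ℕ) (ψ₁ ξ₁ ψ : ℂ) :
    xiI s N ψ₁ ξ₁ ψ = ξ₁ * Complex.exp (-(s * I * ψ₁ / N)) * Complex.exp (s * I * ψ / N) := by
  rw [xiI, mul_assoc ξ₁, ← Complex.exp_add]
  congr 2
  ring

theorem c_pow (s : ℂ) (N : ℕ) (hN : 1 ≤ N) (ψ₁ ξ₁ : ℂ) (hξ : ξ₁ ≠ 0)
    (h : Complex.exp (s * I * ψ₁) = ξ₁ ^ N) : (ξ₁ * Complex.exp (-(s * I * ψ₁ / N))) ^ N = 1 := by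
  have hN0 : (N : ℂ) ≠ 0 := by
    have : N ≠ 0 := by omega
    exact_mod_cast this
  rw [mul_pow, ← Complex.exp_nat_mul, ← h, ← Complex.exp_add,
    show s * I * ψ₁ + N * -(s * I * ψ₁ / N) = 0 by field_simp; ring, Complex.exp_zero]

theorem Gc_an {s : ℂ} {N : ℕ} {k : ℤ} {R : ℂ → ℂ} {ε : ℝ} (dR : DifferentiableOn ℂ R (ball 0 ε))
    {c ψ : ℂ} (hc : c ≠ 0) (h : c * Complex.exp (s * I * ψ / N) ∈ ball (0 : ℂ) ε) :
    AnalyticAt ℂ (Gc s N k R c) ψ := by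
  have h1 : AnalyticAt ℂ (fun ψ : ℂ => c * Complex.exp (s * I * ψ / N)) ψ := by
    refine analyticAt_const.mul (AnalyticAt.cexp ?_)
    exact (analyticAt_const.mul analyticAt_id).div_const
  have h2 : AnalyticAt ℂ R (c * Complex.exp (s * I * ψ / N)) :=
    dR.analyticAt (isOpen_ball.mem_nhds h)
  exact (h1.fun_zpow (mul_ne_zero hc (Complex.exp_ne_zero _))).mul (AnalyticAt.comp'
    (f := fun ψ : ℂ => c * Complex.exp (s * I * ψ / N)) (g := R) h2 h1)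

theorem norm_eq_one_of_pow {c : ℂ} {N : ℕ} (hN : 1 ≤ N) (hc : c ^ N = 1) : ‖c‖ = 1 :=
  Complex.norm_eq_one_of_pow_eq_one hc (by omega)

/-- if one point of the end is good then the end is good -/
theorem endI_of (A0 : RootA) {s : ℂ} (hs : s = 1 ∨ s = -1) {N : ℕ} (hN : 1 ≤ N) {k : ℤ}
    {R : ℂ → ℂ} {ε : ℝ} (hε : 0 < ε) (dR : DifferentiableOn ℂ R (ball 0 ε))
    (R0 : ∀ ξ ∈ ball (0 : ℂ) ε, R ξ ≠ 0) {ξ₁ ψ₁ : ℂ} (hξ : ξ₁ ∈ ball (0 : ℂ) ε) (hξ0 : ξ₁ ≠ 0)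
    (hψ : Complex.exp (s * I * ψ₁) = ξ₁ ^ N) {g : ℂ → ℂ} (hg : AnalyticAt ℂ g ψ₁)
    (hgR : ∀ᶠ ψ in 𝓝 ψ₁, g ψ = xiI s N ψ₁ ξ₁ ψ ^ k * R (xiI s N ψ₁ ξ₁ ψ))
    (hgood : Good (Ik g) (TT g) ψ₁) : EndI s N k R ε := by
  have hN0 : (N : ℂ) ≠ 0 := by
    have : N ≠ 0 := by omega
    exact_mod_cast this
  have hss : s * s = 1 := by
    rcases hs with rfl | rfl <;> ring
  set c : ℂ := ξ₁ * Complex.exp (-(s * I * ψ₁ / N)) with hc
  have hcN : c ^ N = 1 := c_pow s N hN ψ₁ ξ₁ hξ0 hψ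
  have hc1 : ‖c‖ = 1 := norm_eq_one_of_pow hN hcN
  have hc0 : c ≠ 0 := norm_ne_zero_iff.1 (by rw [hc1]; exact one_ne_zero)
  have hgc : g =ᶠ[𝓝 ψ₁] Gc s N k R c := by
    filter_upwards [hgR] with ψ h
    rw [h, Gc, xiI_eq, ← hc]
  -- the half plane
  set U : Set ℂ := {ψ | ‖Complex.exp (s * I * ψ / N)‖ < ε} with hU
  have hexp : ∀ ψ : ℂ, ‖Complex.exp (s * I * ψ / N)‖ = Real.exp (-(s.re * ψ.im) / N) := by
    intro ψ
    rw [Complex.norm_exp]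
    congr 1
    rcases hs with rfl | rfl <;> simp [Complex.div_natCast_re]
  have hUo : IsOpen U := isOpen_lt (by fun_prop) continuous_const
  have hUc : IsPreconnected U := by
    refine Convex.isPreconnected ?_
    intro x hx y hy a b ha hb hab
    have hx' : ‖Complex.exp (s * I * x / N)‖ < ε := hx
    have hy' : ‖Complex.exp (s * I * y / N)‖ < ε := hy
    show ‖Complex.exp (s * I * (a • x + b • y) / N)‖ < ε
    rw [hexp] at hx' hy' ⊢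
    have h1 := (Real.lt_log_iff_exp_lt hε).2 hx'
    have h2 := (Real.lt_log_iff_exp_lt hε).2 hy'
    rw [← Real.lt_log_iff_exp_lt hε]
    have h3 : (a • x + b • y).im = a * x.im + b * y.im := by simp
    rw [h3]
    have h4 : -(s.re * (a * x.im + b * y.im)) / (N : ℝ) =
        a * (-(s.re * x.im) / N) + b * (-(s.re * y.im) / N) := by ring
    rw [h4]
    have hb' : b = 1 - a := by linarith
    rcases eq_or_lt_of_le ha with h5 | h5
    · rw [hb', ← h5]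
      simpa using h2
    · have e1 := mul_lt_mul_of_pos_left h1 h5
      have e2 := mul_le_mul_of_nonneg_left h2.le hb
      have e3 : a * Real.log ε + b * Real.log ε = Real.log ε := by rw [← add_mul, hab, one_mul]
      linarith
  have hmem : ∀ c' : ℂ, c' ^ N = 1 → ∀ ψ : ℂ,
      (c' * Complex.exp (s * I * ψ / N) ∈ ball (0 : ℂ) ε ↔ ψ ∈ U) := by
    intro c' hc' ψ
    rw [mem_ball_zero_iff, norm_mul, norm_eq_one_of_pow hN hc', one_mul]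
    rfl
  have hψU : ∀ ξ₂ ψ₂ : ℂ, ξ₂ ∈ ball (0 : ℂ) ε → Complex.exp (s * I * ψ₂) = ξ₂ ^ N → ψ₂ ∈ U := by
    intro ξ₂ ψ₂ h1 h2
    have h3 : ‖Complex.exp (s * I * ψ₂ / N)‖ ^ N = ‖ξ₂‖ ^ N := by
      rw [← norm_pow, ← norm_pow, ← Complex.exp_nat_mul, ← h2]
      congr 2
      field_simp
    have h4 : ‖Complex.exp (s * I * ψ₂ / N)‖ = ‖ξ₂‖ :=
      (pow_left_inj₀ (norm_nonneg _) (norm_nonneg _) (by omega)).1 h3
    show ‖Complex.exp (s * I * ψ₂ / N)‖ < ε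
    rw [h4]
    exact mem_ball_zero_iff.1 h1
  have hGa : ∀ c' : ℂ, c' ^ N = 1 → c' ≠ 0 → ∀ ψ ∈ U, AnalyticAt ℂ (Gc s N k R c') ψ :=
    fun c' h1 h2 ψ hψ => Gc_an dR h2 ((hmem c' h1 ψ).2 hψ)
  have hG0 : ∀ c' : ℂ, c' ^ N = 1 → c' ≠ 0 → ∀ ψ ∈ U, Gc s N k R c' ψ ≠ 0 :=
    fun c' h1 h2 ψ hψ => mul_ne_zero (zpow_ne_zero _ (mul_ne_zero h2 (Complex.exp_ne_zero _)))
      (R0 _ ((hmem c' h1 ψ).2 hψ))
  have hψ1U : ψ₁ ∈ U := hψU ξ₁ ψ₁ hξ hψ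
  have key : ∀ ψ ∈ U, Good (Ik (Gc s N k R c)) (TT (Gc s N k R c)) ψ := by
    intro ψ hψ'
    have h1 := contGood A0 U id (Gc s N k R c) ψ₁ hUo hUc differentiableOn_id
      (fun ψ hψ => (hGa c hcN hc0 ψ hψ).differentiableAt.differentiableWithinAt)
      (fun u hu => ⟨by rw [deriv_id]; exact one_ne_zero, hG0 c hcN hc0 u hu⟩) hψ1U ?_ ψ hψ'
    · exact h1 _ (Eventually.of_forall fun _ => rfl)
    · intro ρ hρ
      have h2 : g =ᶠ[𝓝 ψ₁] ρ := by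
        filter_upwards [hgc, hρ] with w h3 h4
        rw [h3]
        exact h4.symm
      refine Good.of_germ A0 h2 hg ?_ hgood
      show g ψ₁ ≠ 0
      rw [hgc.eq_of_nhds]
      exact hG0 c hcN hc0 ψ₁ hψ1U
  refine ⟨hs, hε, hN, dR, R0, ?_⟩
  intro ξ₂ hξ2 hξ20 ψ₂ hψ2 ρ hρ
  set c₂ : ℂ := ξ₂ * Complex.exp (-(s * I * ψ₂ / N)) with hc₂
  have hc2N : c₂ ^ N = 1 := c_pow s N hN ψ₂ ξ₂ hξ20 hψ2
  have hc20 : c₂ ≠ 0 := mul_ne_zero hξ20 (Complex.exp_ne_zero _)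
  have hψ2U : ψ₂ ∈ U := hψU ξ₂ ψ₂ hξ2 hψ2
  have hq : (c₂ / c) ^ N = 1 := by rw [div_pow, hcN, hc2N, div_one]
  haveI : NeZero N := ⟨by omega⟩
  obtain ⟨n, -, hn⟩ := (Complex.isPrimitiveRoot_exp N (by omega)).eq_pow_of_pow_eq_one hq
  have hn' : c * Complex.exp (2 * Real.pi * I / N * n) = c₂ := by
    rw [mul_comm (2 * Real.pi * I / (N : ℂ)) (n : ℂ), Complex.exp_nat_mul, hn]
    field_simp
  set a : ℂ := 2 * Real.pi * n * s with ha
  have hsh : (fun w => Gc s N k R c (w + a)) = Gc s N k R c₂ := by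
    funext w
    have h1 : c * Complex.exp (s * I * (w + a) / N) = c₂ * Complex.exp (s * I * w / N) := by
      rw [← hn', mul_assoc c, ← Complex.exp_add]
      congr 2
      rw [ha]
      have : s * I * (w + 2 * Real.pi * n * s) / N =
        (s * s) * (2 * Real.pi * I / N * n) + s * I * w / N := by ring
      rw [this, hss, one_mul]
    simp only [Gc, h1]
  have haU : ψ₂ + a ∈ U := by
    have h1 := (hmem c₂ hc2N ψ₂).2 hψ2U
    rw [← hmem c hcN]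
    have h2 : c * Complex.exp (s * I * (ψ₂ + a) / N) = c₂ * Complex.exp (s * I * ψ₂ / N) := by
      rw [← hn', mul_assoc c, ← Complex.exp_add]
      congr 2
      rw [ha]
      have : s * I * (ψ₂ + 2 * Real.pi * n * s) / N =
        (s * s) * (2 * Real.pi * I / N * n) + s * I * ψ₂ / N := by ring
      rw [this, hss, one_mul]
    rw [h2]
    exact h1
  have h3 := good_shift_mpr (Gc s N k R c) a ψ₂ (key _ haU)
  rw [hsh] at h3
  refine Good.of_germ A0 ?_ (hGa c₂ hc2N hc20 ψ₂ hψ2U) (hG0 c₂ hc2N hc20 ψ₂ hψ2U) h3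
  filter_upwards [hρ] with w hw
  rw [hw, Gc, xiI_eq, ← hc₂]

end Vale.Agent.P097.Alg
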