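import Vale.Agent.P097.H402.Alg.NAInf

/-! # P097 / ALG-NA: the conic invariant of the good branches is bounded at infinity, part 2 -/

set_option linter.all false

open Complex Metric Filter Topology Set Polynomial

namespace Vale.Agent.P097.Alg

open Vale.Agent.P097.H402.Rat Vale.Agent.P097.NZ Vale.Agent.P097.H367.PropD

/-- one of finitely many analytic functions -/
theorem one_of {ι : Type*} [Finite ι] {g : ℂ → ℂ} {G : ι → ℂ → ℂ} {ψ : ℂ} (hg : AnalyticAt ℂ g ψ)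
    (hG : ∀ j, AnalyticAt ℂ (G j) ψ) (h : ∀ᶠ w in 𝓝 ψ, ∃ j, g w = G j w) :
    ∃ j, g =ᶠ[𝓝 ψ] G j := by
  by_contra hcon
  push Not at hcon
  have h1 : ∀ j, ∀ᶠ w in 𝓝[≠] ψ, g w ≠ G j w := fun j =>
    (hg.eventually_eq_or_eventually_ne (hG j)).resolve_left (hcon j)
  have h2 : ∀ᶠ w in 𝓝[≠] ψ, ∀ j, g w ≠ G j w := Filter.eventually_all.2 h1
  obtain ⟨w, a, j, b⟩ := (h2.and (h.filter_mono nhdsWithin_le_nhds)).exists
  exact a j b

theorem germ_kap {ρ ρ' : ℂ → ℂ} {ψ : ℂ} (h : ρ =ᶠ[𝓝 ψ] ρ') : kap ρ ψ = kap ρ' ψ := by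
  simp only [kap, h.eq_of_nhds, h.deriv_eq, h.deriv.deriv_eq]

theorem norm_exp_s {s : ℂ} (hs : s = 1 ∨ s = -1) (N : ℕ) (ψ : ℂ) :
    ‖Complex.exp (s * I * ψ / N)‖ = Real.exp (-(s.re * ψ.im) / N) := by
  rw [Complex.norm_exp]
  congr 1
  rcases hs with rfl | rfl <;> simp [Complex.div_natCast_re]

theorem bd_inf1 (A0 : RootA) (ei : EndBdI) (pu : PPU) {s : ℂ} (hs : s = 1 ∨ s = -1) {d : ℕ}
    (hd : 1 ≤ d) {a : ℕ → ℂ → ℂ} {r : ℝ} (F : AlgF d a r) :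
    ∃ H M : ℝ, ∀ ψ : ℂ, H < s.re * ψ.im → ∀ g : ℂ → ℂ, AnalyticAt ℂ g ψ →
      (∀ᶠ w in 𝓝 ψ, pv d a (Complex.exp (s * I * w)) (g w) = 0) → Good (Ik g) (TT g) ψ →
      ‖kap g ψ‖ ≤ M := by
  obtain ⟨N, ε, k, R, hN, hε, hεr, dR, R0, hroots⟩ := pu d a r hd F
  have hN0 : (N : ℂ) ≠ 0 := by
    have : N ≠ 0 := by omega
    exact_mod_cast this
  have hNpos : (0 : ℝ) < N := by exact_mod_cast hN
  -- bounds at each end
  have hbd : ∀ j : Fin d, ∃ M : ℝ, ∀ᶠ ξ₁ in 𝓝[≠] (0 : ℂ), ∀ ψ₁ : ℂ,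
      Complex.exp (s * I * ψ₁) = ξ₁ ^ N → ∀ g : ℂ → ℂ, AnalyticAt ℂ g ψ₁ →
      (∀ᶠ ψ in 𝓝 ψ₁, g ψ = xiI s N ψ₁ ξ₁ ψ ^ k j * R j (xiI s N ψ₁ ξ₁ ψ)) →
      Good (Ik g) (TT g) ψ₁ → ‖kap g ψ₁‖ ≤ M := by
    intro j
    by_cases hE : EndI s N (k j) (R j) ε
    · obtain ⟨r', hr', hr'ε, M, hM⟩ := ei s N (k j) (R j) ε hE
      refine ⟨M, ?_⟩
      filter_upwards [self_mem_nhdsWithin, nhdsWithin_le_nhds (ball_mem_nhds (0 : ℂ) hr')]
        with ξ₁ h1 h2 ψ₁ h3 g h4 h5 h6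
      exact hM ξ₁ h2 h1 ψ₁ h3 g h5
    · refine ⟨0, ?_⟩
      filter_upwards [self_mem_nhdsWithin, nhdsWithin_le_nhds (ball_mem_nhds (0 : ℂ) hε)]
        with ξ₁ h1 h2 ψ₁ h3 g h4 h5 h6
      exact absurd (endI_of A0 hs hN hε (dR j) (R0 j) h2 h1 h3 h4 h5 h6) hE
  choose M hM using hbd
  have hall := Filter.eventually_all.2 hM
  rw [eventually_nhdsWithin_iff] at hall
  obtain ⟨r₁, hr₁, hr⟩ := Metric.eventually_nhds_iff_ball.1 hall
  set r₂ := min r₁ ε with hr₂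
  have hr₂0 : 0 < r₂ := lt_min hr₁ hε
  refine ⟨-(N * Real.log r₂), ∑ j, |M j|, ?_⟩
  intro ψ hψ g hg hgP hgood
  set ξ₁ : ℂ := Complex.exp (s * I * ψ / N) with hξ₁
  have hξ0 : ξ₁ ≠ 0 := Complex.exp_ne_zero _
  have hξn : ‖ξ₁‖ < r₂ := by
    rw [hξ₁, norm_exp_s hs, ← Real.lt_log_iff_exp_lt hr₂0, div_lt_iff₀ hNpos]
    linarith
  have hpow : ∀ w : ℂ, Complex.exp (s * I * w) = Complex.exp (s * I * w / N) ^ N := by
    intro w
    rw [← Complex.exp_nat_mul]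
    congr 1
    field_simp
  have hcont : ContinuousAt (fun w : ℂ => Complex.exp (s * I * w / N)) ψ := by fun_prop
  have hnear : ∀ᶠ w in 𝓝 ψ, Complex.exp (s * I * w / N) ∈ ball (0 : ℂ) ε := by
    refine hcont.eventually_mem (isOpen_ball.mem_nhds ?_)
    rw [mem_ball_zero_iff]
    exact hξn.trans_le (min_le_right _ _)
  have hex : ∀ᶠ w in 𝓝 ψ, ∃ j, g w = Gc s N (k j) (R j) 1 w := by
    filter_upwards [hgP, hnear] with w h1 h2
    rw [hpow w] at h1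
    obtain ⟨j, hj⟩ := (hroots _ h2 (Complex.exp_ne_zero _) _).1 h1
    refine ⟨j, ?_⟩
    rw [hj, Gc, one_mul]
  obtain ⟨j, hj⟩ := one_of hg (fun j => Gc_an (dR j) one_ne_zero (by
    rw [one_mul]
    exact hnear.self_of_nhds)) hex
  have h1 := hr ξ₁ (by
    rw [mem_ball_zero_iff]
    exact hξn.trans_le (min_le_left _ _)) hξ0 j ψ (hpow ψ) g hg (by
    filter_upwards [hj] with w hw
    have : xiI s N ψ ξ₁ w = 1 * Complex.exp (s * I * w / N) := by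
      rw [xiI_eq, hξ₁, ← Complex.exp_add, add_neg_cancel, Complex.exp_zero]
    rw [hw, Gc, this]) hgood
  exact h1.trans ((le_abs_self _).trans
    (Finset.single_le_sum (f := fun j => |M j|) (fun i _ => abs_nonneg _) (Finset.mem_univ j)))

/-- a non zero polynomial has no zeros near `0` except perhaps `0` -/
theorem poly_ne {p : ℂ[X]} (hp : p ≠ 0) : ∀ᶠ x in 𝓝 (0 : ℂ), x ≠ 0 → p.eval x ≠ 0 := by
  have h1 : ((p.roots.toFinset : Set ℂ) \ {0}).Finite :=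
    (Finset.finite_toSet _).subset diff_subset
  have h2 : ∀ᶠ x in 𝓝 (0 : ℂ), x ∈ ((p.roots.toFinset : Set ℂ) \ {0})ᶜ :=
    h1.isClosed.isOpen_compl.mem_nhds (by simp)
  filter_upwards [h2] with x hx hx0 h
  apply hx
  refine ⟨?_, hx0⟩
  rw [Finset.mem_coe, Multiset.mem_toFinset, mem_roots hp]
  exact h

theorem algF_of (c : ℕ → ℂ[X]) (d : ℕ) (hl : c d ≠ 0) (h0 : c 0 ≠ 0) (D : ℂ[X]) (hD : D ≠ 0)
    (hsep : ∀ x : ℂ, x ≠ 0 → D.eval x ≠ 0 → ∀ Y, pv d (fun i x => (c i).eval x) x Y = 0 →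
      pv' d (fun i x => (c i).eval x) x Y ≠ 0) :
    ∃ r, AlgF d (fun i x => (c i).eval x) r := by
  obtain ⟨r, hr, h⟩ := Metric.eventually_nhds_iff_ball.1
    ((poly_ne hl).and ((poly_ne h0).and (poly_ne hD)))
  exact ⟨r, hr, fun i => (c i).differentiable.differentiableOn, fun x hx hx0 => (h x hx).1 hx0,
    fun x hx hx0 => (h x hx).2.1 hx0, fun x hx hx0 Y hY => hsep x hx0 ((h x hx).2.2 hx0) Y hY⟩

theorem pv_eq (P : ℂ[X][X]) (x Y : ℂ) :
    pv P.natDegree (fun i x => (P.coeff i).eval x) x Y = P.evalEval x Y :=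
  (evalEval_sum' P x Y).symm

theorem hasDerivAt_pv (d : ℕ) (a : ℕ → ℂ → ℂ) (x Y : ℂ) :
    HasDerivAt (fun Y => pv d a x Y) (pv' d a x Y) Y := by
  unfold pv pv'
  refine HasDerivAt.fun_sum fun i _ => ?_
  have h := (hasDerivAt_pow i Y).const_mul (a i x)
  refine h.congr_deriv ?_
  ring

theorem pv'_eq (P : ℂ[X][X]) (x Y : ℂ) :
    pv' P.natDegree (fun i x => (P.coeff i).eval x) x Y = (derivative P).evalEval x Y := by
  have h1 := hasDerivAt_pv P.natDegree (fun i x => (P.coeff i).eval x) x Y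
  have h2 := deriv_evalEval P x Y
  have h3 : (fun Y => pv P.natDegree (fun i x => (P.coeff i).eval x) x Y) =
      fun Y => P.evalEval x Y := funext fun Y => pv_eq P x Y
  rw [h3] at h1
  exact h1.unique h2

theorem sep_of {P A B : ℂ[X][X]} {D : ℂ[X]} (hAB : A * P + B * derivative P = C D) {x Y : ℂ}
    (hD : D.eval x ≠ 0) (h : P.evalEval x Y = 0) : (derivative P).evalEval x Y ≠ 0 := by
  intro h1
  have h2 := congrArg (fun Q => Polynomial.evalEval x Y Q) hAB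
  simp only [evalEval_add, evalEval_mul, evalEval_C] at h2
  rw [h, h1, mul_zero, mul_zero, add_zero] at h2
  exact hD h2.symm

theorem eval_reflect (p : ℂ[X]) (m : ℕ) (hm : p.natDegree ≤ m) {x : ℂ} (hx : x ≠ 0) :
    (reflect m p).eval x = x ^ m * p.eval x⁻¹ := by
  have hx' : x⁻¹ ≠ 0 := inv_ne_zero hx
  letI : Invertible x⁻¹ := invertibleOfNonzero hx'
  have h := eval₂_reflect_mul_pow (RingHom.id ℂ) x⁻¹ m p hm
  have h1 : ⅟(x⁻¹) = x := by rw [invOf_eq_inv, inv_inv]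
  rw [h1] at h
  have h2 : (reflect m p).eval x * x⁻¹ ^ m = p.eval x⁻¹ := h
  rw [← h2, inv_pow]
  field_simp

theorem bd_inf (A0 : RootA) (ei : EndBdI) (pu : PPU) (P : ℂ[X][X]) (hd : 0 < P.natDegree)
    (h0 : P.coeff 0 ≠ 0) (A B : ℂ[X][X]) (D : ℂ[X]) (hD : D ≠ 0)
    (hAB : A * P + B * derivative P = C D) :
    ∃ H M : ℝ, ∀ ψ : ℂ, H < |ψ.im| → ∀ g : ℂ → ℂ, AnalyticAt ℂ g ψ →
      (∀ᶠ w in 𝓝 ψ, P.evalEval (ez w) (g w) = 0) → Good (Ik g) (TT g) ψ → ‖kap g ψ‖ ≤ M := by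
  have hl : P.leadingCoeff ≠ 0 := by
    rw [leadingCoeff_ne_zero]
    rintro rfl
    simp at hd
  -- s = 1
  obtain ⟨r₁, F₁⟩ := algF_of (fun i => P.coeff i) P.natDegree hl h0 D hD (by
    intro x hx hDx Y hY
    rw [pv_eq] at hY
    rw [pv'_eq]
    exact sep_of hAB hDx hY)
  -- s = -1
  obtain ⟨m, hm⟩ : ∃ m : ℕ, ∀ i, (P.coeff i).natDegree ≤ m := by
    refine ⟨∑ i ∈ Finset.range (P.natDegree + 1), (P.coeff i).natDegree, fun i => ?_⟩
    rcases le_or_gt i P.natDegree with h | h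
    · exact Finset.single_le_sum (f := fun i => (P.coeff i).natDegree)
        (fun i _ => Nat.zero_le _) (Finset.mem_range.2 (by omega))
    · rw [coeff_eq_zero_of_natDegree_lt h, natDegree_zero]
      exact Nat.zero_le _
  have hpv : ∀ x : ℂ, x ≠ 0 → ∀ Y, pv P.natDegree (fun i x => (reflect m (P.coeff i)).eval x) x Y =
      x ^ m * P.evalEval x⁻¹ Y := by
    intro x hx Y
    rw [evalEval_sum', pv, Finset.mul_sum]
    refine Finset.sum_congr rfl fun i _ => ?_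
    rw [eval_reflect _ m (hm i) hx, mul_assoc]
  have hpv' : ∀ x : ℂ, x ≠ 0 → ∀ Y,
      pv' P.natDegree (fun i x => (reflect m (P.coeff i)).eval x) x Y =
      x ^ m * (derivative P).evalEval x⁻¹ Y := by
    intro x hx Y
    have h1 := hasDerivAt_pv P.natDegree (fun i x => (reflect m (P.coeff i)).eval x) x Y
    have h2 := (deriv_evalEval P x⁻¹ Y).const_mul (x ^ m)
    have h3 : (fun Y => pv P.natDegree (fun i x => (reflect m (P.coeff i)).eval x) x Y) =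
      fun Y => x ^ m * P.evalEval x⁻¹ Y := funext fun Y => hpv x hx Y
    rw [h3] at h1
    exact h1.unique h2
  obtain ⟨r₂, F₂⟩ := algF_of (fun i => reflect m (P.coeff i)) P.natDegree
    (fun h => hl (reflect_eq_zero_iff.1 h)) (fun h => h0 (reflect_eq_zero_iff.1 h))
    (reflect D.natDegree D) (fun h => hD (reflect_eq_zero_iff.1 h)) (by
    intro x hx hDx Y hY
    rw [hpv x hx] at hY
    rw [hpv' x hx]
    rw [eval_reflect D _ le_rfl hx] at hDx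
    have hx' : x ^ m ≠ 0 := pow_ne_zero _ hx
    exact mul_ne_zero hx' (sep_of hAB (right_ne_zero_of_mul hDx)
      ((mul_eq_zero.1 hY).resolve_left hx')))
  obtain ⟨H₁, M₁, h₁⟩ := bd_inf1 A0 ei pu (s := 1) (Or.inl rfl) hd F₁
  obtain ⟨H₂, M₂, h₂⟩ := bd_inf1 A0 ei pu (s := -1) (Or.inr rfl) hd F₂
  refine ⟨max H₁ H₂, max M₁ M₂, ?_⟩
  intro ψ hψ g hg hP hgood
  rcases lt_abs.1 hψ with h | h
  · refine (h₁ ψ ?_ g hg ?_ hgood).trans (le_max_left _ _)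
    · rw [Complex.one_re, one_mul]
      exact (le_max_left _ _).trans_lt h
    · filter_upwards [hP] with w hw
      rw [pv_eq, one_mul]
      exact hw
  · refine (h₂ ψ ?_ g hg ?_ hgood).trans (le_max_right _ _)
    · rw [Complex.neg_re, Complex.one_re, neg_one_mul]
      exact (le_max_right _ _).trans_lt h
    · filter_upwards [hP] with w hw
      rw [hpv _ (Complex.exp_ne_zero _)]
      have : (Complex.exp (-1 * I * w))⁻¹ = ez w := by
        rw [ez, ← Complex.exp_neg]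
        congr 1
        ring
      rw [this, hw, mul_zero]

end Vale.Agent.P097.Alg
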