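import Vale.Agent.P097.H402.Alg.Main
import Vale.Agent.P097.H967.Alg.EB
import Vale.Agent.P097.H357.L0z
import Vale.Agent.P097.H697.PL1
import Vale.Agent.P097.H737.AlgLI
import Vale.Agent.P097.H147.EL
import Vale.Agent.P097.H791.Iso2
import Vale.Agent.P097.H128.NZ.End3
import Vale.Agent.P097.H992.NZF

/-! # P097 / ALG: the theorem -/

set_option linter.all false

namespace Vale.Agent.P097.Alg

open Vale.Agent.P097.NZ Vale.Agent.P097.H402.Rat

theorem endBd_main : EndBd :=
  H967.EB.endBd H65.rootA kb_main (endE H65.rootA) (Vale.Agent.P097.NZ.lawEB H65.rootA) H357.pl0_final H697.pl1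

theorem endBdI_main : EndBdI :=
  H967.EB.endBdI (H147.endLI H65.rootA (lawI0 H65.rootA)) H244.pk5 H330.KI.pk6 H737.pli_final

/-- **ALG**: a table integrable near the boundary with an algebraic radius of curvature is an
ellipse -/
theorem palg_main : PALG := palg_of endBd_main endBdI_main

end Vale.Agent.P097.Alg
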